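import Mathlib

namespace Vale.Agent.P124
open Finset Filter Topology

def Near (x y : ℕ → ℝ) (t : ℝ) : Prop := ∀ j, |x j - y j| ≤ t

def Lip (f : (ℕ → ℝ) → ℝ) (L : ℝ) : Prop := ∀ x y t, Near x y t → |f x - f y| ≤ L * t

def U01 (g : (ℕ → ℝ) → ℝ) : Prop := ∀ x, 0 ≤ g x ∧ g x ≤ 1

lemma Near.nonneg {x y : ℕ → ℝ} {t : ℝ} (h : Near x y t) : 0 ≤ t := (abs_nonneg _).trans (h 0)

lemma Near.symm {x y : ℕ → ℝ} {t : ℝ} (h : Near x y t) : Near y x t :=
  fun j => by rw [abs_sub_comm]; exact h j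

lemma Lip.nonneg {f : (ℕ → ℝ) → ℝ} {L : ℝ} (h : Lip f L) : 0 ≤ L := by
  have := h 0 0 1 (fun j => by simp)
  simpa using this

lemma Lip.mono {f : (ℕ → ℝ) → ℝ} {L L' : ℝ} (h : Lip f L) (hL : L ≤ L') : Lip f L' :=
  fun x y t hn => (h x y t hn).trans (mul_le_mul_of_nonneg_right hL hn.nonneg)

lemma Lip.add {f g : (ℕ → ℝ) → ℝ} {L L' : ℝ} (h : Lip f L) (h' : Lip g L') :
    Lip (fun x => f x + g x) (L + L') := fun x y t hn => by
  have h1 := h x y t hn
  have h2 := h' x y t hn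
  have : f x + g x - (f y + g y) = (f x - f y) + (g x - g y) := by ring
  rw [this]
  calc _ ≤ |f x - f y| + |g x - g y| := abs_add_le _ _
    _ ≤ _ := by linarith

lemma Lip.smul {f : (ℕ → ℝ) → ℝ} {L : ℝ} (h : Lip f L) (c : ℝ) :
    Lip (fun x => c * f x) (|c| * L) := fun x y t hn => by
  have h1 := h x y t hn
  rw [← mul_sub, abs_mul, mul_assoc]
  exact mul_le_mul_of_nonneg_left h1 (abs_nonneg _)

lemma Lip.sub {f g : (ℕ → ℝ) → ℝ} {L L' : ℝ} (h : Lip f L) (h' : Lip g L') :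
    Lip (fun x => f x - g x) (L + L') := by
  have := h.add (h'.smul (-1))
  simpa [sub_eq_add_neg] using this

lemma Lip.const (c : ℝ) : Lip (fun _ => c) 0 := fun x y t _ => by simp

lemma Lip.coord (j : ℕ) (a : ℝ) : Lip (fun x => x j - a) 1 := fun x y t hn => by
  have := hn j
  simpa using this

lemma Lip.sum {ι : Type*} (s : Finset ι) {f : ι → (ℕ → ℝ) → ℝ} {L : ι → ℝ}
    (h : ∀ i ∈ s, Lip (f i) (L i)) : Lip (fun x => ∑ i ∈ s, f i x) (∑ i ∈ s, L i) := by
  classical
  induction s using Finset.induction_on with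
  | empty => simpa using Lip.const 0
  | insert a s ha ih =>
    simp only [sum_insert ha]
    exact (h a (mem_insert_self _ _)).add (ih fun i hi => h i (mem_insert_of_mem hi))

lemma Lip.mul01 {f g : (ℕ → ℝ) → ℝ} {L L' A : ℝ} (hf : Lip f L) (hg : Lip g L') (h01 : U01 g)
    (hA : ∀ x, g x ≠ 0 → |f x| ≤ A) (hA0 : 0 ≤ A) : Lip (fun x => f x * g x) (L + A * L') := by
  have key : ∀ x y t, Near x y t → g x ≠ 0 → |f x * g x - f y * g y| ≤ (L + A * L') * t := by
    intro x y t hn hx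
    have h1 := hf x y t hn
    have h2 := hg x y t hn
    have e : f x * g x - f y * g y = f x * (g x - g y) + (f x - f y) * g y := by ring
    rw [e]
    have h3 : |f x * (g x - g y)| ≤ A * (L' * t) := by
      rw [abs_mul]; exact mul_le_mul (hA x hx) h2 (abs_nonneg _) hA0
    have h4 : |(f x - f y) * g y| ≤ L * t := by
      rw [abs_mul, abs_of_nonneg (h01 y).1]
      exact (mul_le_of_le_one_right (abs_nonneg _) (h01 y).2).trans h1
    have h5 := abs_add_le (f x * (g x - g y)) ((f x - f y) * g y)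
    nlinarith
  intro x y t hn
  by_cases hx : g x = 0
  · by_cases hy : g y = 0
    · simp only [hx, hy, mul_zero, sub_zero, abs_zero]
      exact mul_nonneg (add_nonneg hf.nonneg (mul_nonneg hA0 hg.nonneg)) hn.nonneg
    · rw [abs_sub_comm]; exact key y x t hn.symm hy
  · exact key x y t hn hx

lemma U01.mul {f g : (ℕ → ℝ) → ℝ} (hf : U01 f) (hg : U01 g) : U01 (fun x => f x * g x) :=
  fun x => ⟨mul_nonneg (hf x).1 (hg x).1, mul_le_one₀ (hf x).2 (hg x).1 (hg x).2⟩

lemma U01.prod {ι : Type*} (s : Finset ι) {g : ι → (ℕ → ℝ) → ℝ} (h : ∀ i ∈ s, U01 (g i)) :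
    U01 (fun x => ∏ i ∈ s, g i x) :=
  fun x => ⟨prod_nonneg fun i hi => (h i hi x).1,
    prod_le_one (fun i hi => (h i hi x).1) fun i hi => (h i hi x).2⟩

lemma Lip.mulU {f g : (ℕ → ℝ) → ℝ} {L L' : ℝ} (hf : Lip f L) (hg : Lip g L') (hf1 : U01 f)
    (hg1 : U01 g) : Lip (fun x => f x * g x) (L + L') := by
  have := hf.mul01 hg hg1 (A := 1) (fun x _ => by
    rw [abs_of_nonneg (hf1 x).1]; exact (hf1 x).2) zero_le_one
  simpa using this

lemma Lip.prod01 {ι : Type*} (s : Finset ι) {g : ι → (ℕ → ℝ) → ℝ} {L : ι → ℝ}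
    (h : ∀ i ∈ s, Lip (g i) (L i)) (h1 : ∀ i ∈ s, U01 (g i)) :
    Lip (fun x => ∏ i ∈ s, g i x) (∑ i ∈ s, L i) := by
  classical
  induction s using Finset.induction_on with
  | empty => simpa using Lip.const 1
  | insert a s ha ih =>
    simp only [sum_insert ha, prod_insert ha]
    exact (h a (mem_insert_self _ _)).mulU
      (ih (fun i hi => h i (mem_insert_of_mem hi)) fun i hi => h1 i (mem_insert_of_mem hi))
      (h1 a (mem_insert_self _ _)) (U01.prod s fun i hi => h1 i (mem_insert_of_mem hi))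

/- the bump -/
noncomputable def bb : ContDiffBump (0 : ℝ) := ⟨1, 2, one_pos, one_lt_two⟩

noncomputable def b (u : ℝ) : ℝ := bb u

lemma b_one {u : ℝ} (h : |u| ≤ 1) : b u = 1 :=
  bb.one_of_mem_closedBall (by simpa [bb] using h)

lemma b_zero {u : ℝ} (h : 2 ≤ |u|) : b u = 0 :=
  bb.zero_of_le_dist (by simpa [bb] using h)

lemma b_ne {u : ℝ} (h : b u ≠ 0) : |u| < 2 := by
  by_contra h'
  exact h (b_zero (not_lt.1 h'))

lemma b_nonneg (u : ℝ) : 0 ≤ b u := bb.nonneg
lemma b_le (u : ℝ) : b u ≤ 1 := bb.le_one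
lemma b_cd : ContDiff ℝ 1 b := bb.contDiff

lemma b_lip_ex : ∃ L : ℝ, 0 ≤ L ∧ ∀ u v, |b u - b v| ≤ L * |u - v| := by
  obtain ⟨C, hC⟩ := ContDiff.lipschitzWith_of_hasCompactSupport bb.hasCompactSupport
    (bb.contDiff (n := 1)) (by simp)
  exact ⟨C, C.2, fun u v => by simpa [Real.dist_eq, b] using hC.dist_le_mul u v⟩

noncomputable def Lb : ℝ := b_lip_ex.choose
lemma Lb_nonneg : 0 ≤ Lb := b_lip_ex.choose_spec.1
lemma b_lip (u v : ℝ) : |b u - b v| ≤ Lb * |u - v| := b_lip_ex.choose_spec.2 u v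

lemma Lip.bcomp {f : (ℕ → ℝ) → ℝ} {L : ℝ} (h : Lip f L) : Lip (fun x => b (f x)) (Lb * L) :=
  fun x y t hn => (b_lip _ _).trans (by
    rw [mul_assoc]; exact mul_le_mul_of_nonneg_left (h x y t hn) Lb_nonneg)

lemma U01.bcomp (f : (ℕ → ℝ) → ℝ) : U01 (fun x => b (f x)) := fun _ => ⟨b_nonneg _, b_le _⟩

/- smooth maximum -/
noncomputable def vp (t : ℝ) : ℝ := ∫ u in (-1 : ℝ)..t, Real.smoothTransition (u + 1)

lemma st_cont : Continuous fun u : ℝ => Real.smoothTransition (u + 1) :=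
  Real.smoothTransition.continuous.comp (continuous_id.add continuous_const)

lemma vp_deriv (t : ℝ) : HasDerivAt vp (Real.smoothTransition (t + 1)) t :=
  intervalIntegral.integral_hasDerivAt_right (st_cont.intervalIntegrable _ _)
    (st_cont.stronglyMeasurableAtFilter _ _) st_cont.continuousAt

lemma vp_cd : ContDiff ℝ 1 vp := by
  rw [contDiff_one_iff_deriv]
  refine ⟨fun t => (vp_deriv t).differentiableAt, ?_⟩
  have : deriv vp = fun u => Real.smoothTransition (u + 1) := funext fun t => (vp_deriv t).deriv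
  rw [this]; exact st_cont

lemma vp_mono : Monotone vp :=
  monotone_of_deriv_nonneg (fun t => (vp_deriv t).differentiableAt) fun t => by
    rw [(vp_deriv t).deriv]; exact Real.smoothTransition.nonneg _

lemma vp_mono' : Monotone fun t => t - vp t :=
  monotone_of_deriv_nonneg (fun t => ((hasDerivAt_id t).sub (vp_deriv t)).differentiableAt)
    fun t => by
      have := ((hasDerivAt_id t).sub (vp_deriv t)).deriv
      erw [this]
      have := Real.smoothTransition.le_one (t + 1)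
      linarith

lemma vp_zero {t : ℝ} (h : t ≤ -1) : vp t = 0 := by
  unfold vp
  rw [intervalIntegral.integral_congr (g := fun _ => 0)]
  · simp
  · intro u hu
    rw [Set.uIcc_of_ge h] at hu
    exact Real.smoothTransition.zero_of_nonpos (by linarith [hu.2])

lemma vp_nonneg (t : ℝ) : 0 ≤ vp t := by
  rcases le_total t (-1) with h | h
  · rw [vp_zero h]
  · rw [← vp_zero (le_refl (-1 : ℝ))]; exact vp_mono h

lemma vp_ge (t : ℝ) : t ≤ vp t := by
  rcases le_total t 0 with h | h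
  · exact h.trans (vp_nonneg t)
  · have h1 : vp t - vp 0 = t := by
      unfold vp
      rw [intervalIntegral.integral_interval_sub_left (st_cont.intervalIntegrable _ _)
        (st_cont.intervalIntegrable _ _), intervalIntegral.integral_congr (g := fun _ => 1)]
      · simp
      · intro u hu
        rw [Set.uIcc_of_le h] at hu
        exact Real.smoothTransition.one_of_one_le (by linarith [hu.1])
    linarith [vp_nonneg 0]

noncomputable def S (a c : ℝ) : ℝ := a + vp (c - a)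

lemma S_ge_left (a c : ℝ) : a ≤ S a c := by unfold S; linarith [vp_nonneg (c - a)]
lemma S_ge_right (a c : ℝ) : c ≤ S a c := by unfold S; linarith [vp_ge (c - a)]
lemma S_eq {a c : ℝ} (h : c ≤ a - 1) : S a c = a := by
  unfold S; rw [vp_zero (by linarith)]; simp

lemma S_le {a c a' c' t : ℝ} (ha : a ≤ a' + t) (hc : c ≤ c' + t) : S a c ≤ S a' c' + t := by
  have h1 : S a c ≤ S a (c' + t) := by
    unfold S; have := vp_mono (show c - a ≤ c' + t - a by linarith); linarith
  have h2 : S a (c' + t) ≤ S (a' + t) (c' + t) := by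
    unfold S
    have := vp_mono' (show c' + t - (a' + t) ≤ c' + t - a by linarith)
    simp only at this
    linarith
  have h3 : S (a' + t) (c' + t) = S a' c' + t := by
    unfold S; rw [show c' + t - (a' + t) = c' - a' by ring]; ring
  linarith

lemma S_lip {a c a' c' t : ℝ} (ha : |a - a'| ≤ t) (hc : |c - c'| ≤ t) :
    |S a c - S a' c'| ≤ t := by
  rw [abs_le] at *
  have h1 := S_le (a := a) (c := c) (a' := a') (c' := c') (t := t) (by linarith) (by linarith)
  have h2 := S_le (a := a') (c := c') (a' := a) (c' := c) (t := t) (by linarith) (by linarith)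
  constructor <;> linarith

noncomputable def mx (u : ℕ → ℝ) : ℕ → ℝ
  | 0 => 3
  | j + 1 => S (S (mx u j) (u j)) (-u j)

lemma mx_succ_ge (u : ℕ → ℝ) (j : ℕ) : mx u j ≤ mx u (j + 1) :=
  (S_ge_left _ _).trans (S_ge_left _ _)

lemma mx_mono (u : ℕ → ℝ) : Monotone (mx u) := monotone_nat_of_le_succ (mx_succ_ge u)

lemma mx_ge (u : ℕ → ℝ) (j : ℕ) : 3 ≤ mx u j := mx_mono u (Nat.zero_le j)

lemma mx_ge_abs (u : ℕ → ℝ) {j M : ℕ} (h : j < M) : |u j| ≤ mx u M := by
  refine le_trans ?_ (mx_mono u h)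
  rw [abs_le']
  exact ⟨(S_ge_right _ _).trans (S_ge_left _ _), S_ge_right _ _⟩

lemma mx_succ_eq (u : ℕ → ℝ) {j : ℕ} (h : |u j| ≤ 2) : mx u (j + 1) = mx u j := by
  have h3 := mx_ge u j
  rw [abs_le] at h
  have e : S (mx u j) (u j) = mx u j := S_eq (by linarith)
  simp only [mx]
  rw [e, S_eq (by linarith)]

lemma mx_ext (u : ℕ → ℝ) {M M' : ℕ} (hM : M ≤ M') (h : ∀ j, M ≤ j → |u j| ≤ 2) :
    mx u M' = mx u M := by
  induction M', hM using Nat.le_induction with
  | base => rfl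
  | succ n hn ih => rw [mx_succ_eq u (h n hn), ih]

lemma mx_congr0 {u u' : ℕ → ℝ} (h : ∀ j, u j = u' j ∨ (|u j| ≤ 2 ∧ |u' j| ≤ 2)) (M : ℕ) :
    mx u M = mx u' M := by
  induction M with
  | zero => rfl
  | succ n ih =>
    rcases h n with h1 | h1
    · simp only [mx, ih, h1]
    · rw [mx_succ_eq u h1.1, mx_succ_eq u' h1.2, ih]

lemma mx_congr {u u' : ℕ → ℝ} {M M' : ℕ} (h : ∀ j, u j = u' j ∨ (|u j| ≤ 2 ∧ |u' j| ≤ 2))
    (h1 : ∀ j, M ≤ j → |u j| ≤ 2) (h2 : ∀ j, M' ≤ j → |u' j| ≤ 2) : mx u M = mx u' M' := by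
  rw [← mx_ext u (le_max_left M M') h1, ← mx_ext u' (le_max_right M M') h2, mx_congr0 h]

lemma mx_lip {u u' : ℕ → ℝ} {t : ℝ} (h : Near u u' t) (M : ℕ) : |mx u M - mx u' M| ≤ t := by
  induction M with
  | zero => simpa [mx] using h.nonneg
  | succ n ih =>
    refine S_lip (S_lip ih (h n)) ?_
    rw [show -u n - -u' n = -(u n - u' n) by ring, abs_neg]; exact h n

end Vale.Agent.P124
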