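import Vale.Agent.P124.Cut

namespace Vale.Agent.P124
open Finset Filter Topology

noncomputable def kap : ℝ := 20 * (Lb + 2)

lemma kap_ge : 40 ≤ kap := by unfold kap; linarith [Lb_nonneg]
lemma kap_pos : 0 < kap := by linarith [kap_ge]

noncomputable def Ex (s : ℝ) : ℝ := Real.exp (kap * s)

lemma Ex_pos (s : ℝ) : 0 < Ex s := Real.exp_pos _
lemma Ex_add (s t : ℝ) : Ex (s + t) = Ex s * Ex t := by unfold Ex; rw [mul_add, Real.exp_add]
lemma Ex_le {s t : ℝ} (h : s ≤ t) : Ex s ≤ Ex t :=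
  Real.exp_le_exp.2 (mul_le_mul_of_nonneg_left h kap_pos.le)
lemma Ex_lt_iff {s t : ℝ} : Ex s < Ex t ↔ s < t := by
  unfold Ex; rw [Real.exp_lt_exp, mul_lt_mul_iff_right₀ kap_pos]
lemma log_Ex (s : ℝ) : Real.log (Ex s) / kap = s := by
  unfold Ex; rw [Real.log_exp]; field_simp [kap_pos.ne']
lemma Ex_log {ρ : ℝ} (h : 0 < ρ) : Ex (Real.log ρ / kap) = ρ := by
  unfold Ex; rw [mul_div_cancel₀ _ kap_pos.ne', Real.exp_log h]

lemma log_lip {a u v : ℝ} (ha : 0 < a) (hu : a ≤ u) (hv : a ≤ v) :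
    a * |Real.log u - Real.log v| ≤ |u - v| := by
  wlog h : v ≤ u generalizing u v
  · rw [abs_sub_comm, abs_sub_comm u]; exact this hv hu (le_of_not_ge h)
  have hv0 : 0 < v := ha.trans_le hv
  have hu0 : 0 < u := ha.trans_le hu
  have h1 : Real.log v ≤ Real.log u := Real.log_le_log hv0 h
  rw [abs_of_nonneg (by linarith), abs_of_nonneg (by linarith)]
  have h2 := Real.log_le_sub_one_of_pos (div_pos hu0 hv0)
  rw [Real.log_div hu0.ne' hv0.ne'] at h2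
  have h3 : v * (Real.log u - Real.log v) ≤ u - v := by
    have := mul_le_mul_of_nonneg_left h2 hv0.le
    rwa [mul_sub v (u / v), mul_div_cancel₀ _ hv0.ne', mul_one] at this
  nlinarith

noncomputable def chi (n : ℤ) (ρ : ℝ) : ℝ := b (Real.log (max ρ (Ex (n - 3))) / kap - n)

lemma chi_lip (n : ℤ) {a ρ ρ' : ℝ} (ha : 0 < a) (h1 : a ≤ max ρ (Ex (n - 3)))
    (h2 : a ≤ max ρ' (Ex (n - 3))) : a * |chi n ρ - chi n ρ'| ≤ Lb / kap * |ρ - ρ'| := by
  have h3 := log_lip ha h1 h2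
  have h4 := abs_max_sub_max_le_abs ρ ρ' (Ex (n - 3))
  have h5 := b_lip (Real.log (max ρ (Ex (n - 3))) / kap - n)
    (Real.log (max ρ' (Ex (n - 3))) / kap - n)
  rw [sub_sub_sub_cancel_right, ← sub_div, abs_div, abs_of_pos kap_pos] at h5
  calc a * |chi n ρ - chi n ρ'|
      ≤ a * (Lb * (|Real.log (max ρ (Ex (n - 3))) - Real.log (max ρ' (Ex (n - 3)))| / kap)) :=
        mul_le_mul_of_nonneg_left h5 ha.le
    _ = Lb / kap * (a * |Real.log (max ρ (Ex (n - 3))) - Real.log (max ρ' (Ex (n - 3)))|) := by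
        ring
    _ ≤ _ := mul_le_mul_of_nonneg_left (h3.trans h4) (div_nonneg Lb_nonneg kap_pos.le)

lemma chi_ne {n : ℤ} {ρ : ℝ} (h : chi n ρ ≠ 0) : Ex (n - 2) < ρ ∧ ρ < Ex (n + 2) := by
  have h1 := b_ne h
  have h0 : 0 < max ρ (Ex (n - 3)) := lt_max_of_lt_right (Ex_pos _)
  rw [abs_lt] at h1
  have h2 : Ex (n - 2) < max ρ (Ex (n - 3)) := by
    rw [← Ex_log h0, Ex_lt_iff]; linarith
  have h3 : max ρ (Ex (n - 3)) < Ex (n + 2) := by
    rw [← Ex_log h0, Ex_lt_iff]; linarith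
  refine ⟨?_, (le_max_left _ _).trans_lt h3⟩
  rcases lt_max_iff.1 h2 with h4 | h4
  · exact h4
  · rw [Ex_lt_iff] at h4; linarith

lemma chi_one {n : ℤ} {ρ : ℝ} (h0 : 0 < ρ) (h : |Real.log ρ / kap - n| ≤ 1) : chi n ρ = 1 := by
  have h1 : Ex (n - 3) ≤ ρ := by
    rw [← Ex_log h0]; apply Ex_le; rw [abs_le] at h; linarith
  unfold chi; rw [max_eq_left h1]; exact b_one h

lemma chi_cd (n : ℤ) : ContDiff ℝ 1 (chi n) := by
  rw [contDiff_iff_contDiffAt]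
  intro ρ
  by_cases h : ρ < Ex (n - 2)
  · have : chi n =ᶠ[𝓝 ρ] fun _ => 0 := by
      filter_upwards [Iio_mem_nhds h] with u hu
      by_contra h'
      exact absurd (chi_ne h').1 (not_lt.2 (le_of_lt hu))
    exact contDiffAt_const.congr_of_eventuallyEq this
  · have h1 : Ex (n - 3) < ρ := (Ex_lt_iff.2 (by linarith)).trans_le (not_lt.1 h)
    have : chi n =ᶠ[𝓝 ρ] fun u => b (Real.log u / kap - n) := by
      filter_upwards [Ioi_mem_nhds h1] with u hu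
      unfold chi; rw [max_eq_left (le_of_lt hu)]
    refine ContDiffAt.congr_of_eventuallyEq ?_ this
    refine b_cd.contDiffAt.comp ρ ?_
    exact ((Real.contDiffAt_log.2 ((Ex_pos _).trans h1).ne').div_const _).sub contDiffAt_const

lemma chi_01 (n : ℤ) (j : ℕ) : U01 fun x => chi n (x j) := U01.bcomp _

lemma chi_Lip (n : ℤ) (j : ℕ) : Lip (fun x => chi n (x j)) (Lb / kap / Ex (n - 3)) := by
  intro x y t hn
  have h1 := chi_lip n (Ex_pos (n - 3)) (le_max_right (x j) _) (le_max_right (y j) _)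
  have h2 := mul_le_mul_of_nonneg_left (hn j) (div_nonneg Lb_nonneg kap_pos.le)
  rw [div_mul_eq_mul_div, le_div_iff₀ (Ex_pos _)]
  linarith

noncomputable def KK : ℝ := kap * Ex 2
lemma KK_pos : 0 < KK := mul_pos kap_pos (Ex_pos _)

noncomputable def eps (j : ℕ) : ℝ := 1 / 2 ^ (j + 1)
lemma eps_pos (j : ℕ) : 0 < eps j := by unfold eps; positivity
lemma eps_sum (D : ℕ) : ∑ j ∈ range D, eps j ≤ 1 := by
  have : ∑ j ∈ range D, eps j = 1 - 1 / 2 ^ D := by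
    induction D with
    | zero => simp
    | succ n ih => rw [sum_range_succ, ih]; unfold eps; field_simp; ring
  rw [this]
  have : (0 : ℝ) < 1 / 2 ^ D := by positivity
  linarith

noncomputable def tt (n : ℤ) (q : ℕ → ℝ) (j : ℕ) : ℝ := eps j * q j / (KK * Ex n)

lemma tt_lip (n : ℤ) {q q' : ℕ → ℝ} {t : ℝ} (h : Near q q' t) (j : ℕ) :
    |tt n q j - tt n q' j| ≤ eps j / (KK * Ex n) * t := by
  have h0 : 0 < eps j / (KK * Ex n) := div_pos (eps_pos j) (mul_pos KK_pos (Ex_pos _))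
  have : tt n q j - tt n q' j = eps j / (KK * Ex n) * (q j - q' j) := by unfold tt; ring
  rw [this, abs_mul, abs_of_pos h0]
  exact mul_le_mul_of_nonneg_left (h j) h0.le

noncomputable def loc (D : ℕ) (n : ℤ) (ν : ℕ → ℤ) (q : ℕ → ℝ) : ℝ :=
  ∏ j ∈ range D, b (tt n q j - ν j)

lemma loc_01 (D : ℕ) (n : ℤ) (ν : ℕ → ℤ) : U01 (loc D n ν) :=
  U01.prod _ fun _ _ => U01.bcomp _

lemma loc_lip (D : ℕ) (n : ℤ) (ν : ℕ → ℤ) : Lip (loc D n ν) (Lb / (KK * Ex n)) := by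
  have h := Lip.prod01 (range D) (g := fun j q => b (tt n q j - ν j))
    (L := fun j => Lb * (eps j / (KK * Ex n))) (fun j _ => Lip.bcomp fun x y t hn => by
      rw [sub_sub_sub_cancel_right]; exact tt_lip n hn j) fun _ _ => U01.bcomp _
  refine h.mono ?_
  rw [← mul_sum, ← sum_div, ← mul_div_assoc]
  refine div_le_div_of_nonneg_right ?_ (mul_pos KK_pos (Ex_pos _)).le
  exact mul_le_of_le_one_right Lb_nonneg (eps_sum D)

lemma loc_ne {D : ℕ} {n : ℤ} {ν : ℕ → ℤ} {q : ℕ → ℝ} (h : loc D n ν q ≠ 0) {j : ℕ} (hj : j < D) :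
    |tt n q j - ν j| < 2 := b_ne (prod_ne_zero_iff.1 h j (mem_range.2 hj))

lemma loc_sm (D : ℕ) (n : ℤ) (ν : ℕ → ℤ) : Sm (loc D n ν) :=
  Sm.prod _ fun j _ => ((((Sm.const _).mul (Sm.coord j)).div _).sub (Sm.const _)).comp b_cd

noncomputable def thr (i : ℕ) (n : ℤ) : ℝ := Ex (n - 2) / 2 ^ i
lemma thr_pos (i : ℕ) (n : ℤ) : 0 < thr i n := div_pos (Ex_pos _) (by positivity)
lemma thr_le (i : ℕ) (n : ℤ) : thr i n ≤ Ex (n - 2) :=
  div_le_self (Ex_pos _).le (one_le_pow₀ one_le_two)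
lemma thr_half {i l : ℕ} (h : i < l) (n : ℤ) : thr l n ≤ thr i n / 2 := by
  unfold thr
  rw [div_div, ← pow_succ]
  exact div_le_div_of_nonneg_left (Ex_pos _).le (by positivity) (pow_le_pow_right₀ one_le_two h)
lemma thr_mono (i : ℕ) {n n' : ℤ} (h : n ≤ n') : thr i n ≤ thr i n' :=
  div_le_div_of_nonneg_right (Ex_le (by simpa using h)) (by positivity)

noncomputable def cuts (l : ℕ) (n : ℤ) (J : ℕ → Finset ℕ) (x : ℕ → ℝ) : ℝ :=
  ∏ i ∈ range l, cut (J i) (thr i n) 0 x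

noncomputable def gg (l m : ℕ) (n : ℤ) (ν : ℕ → ℤ) (J : ℕ → Finset ℕ) (x : ℕ → ℝ) : ℝ :=
  b (x (2 * m) / Ex (n + 2)) * chi n (x (2 * m + 1)) * loc (2 * m) n ν x * cuts l n J x

lemma gg_01 (l m : ℕ) (n : ℤ) (ν : ℕ → ℤ) (J : ℕ → Finset ℕ) : U01 (gg l m n ν J) :=
  (((U01.bcomp _).mul (chi_01 _ _)).mul (loc_01 _ _ _)).mul (U01.prod _ fun _ _ => cut_01 _ _ _)

lemma gg_amp {l m : ℕ} {n : ℤ} {ν : ℕ → ℤ} {J : ℕ → Finset ℕ} {x : ℕ → ℝ}
    (h : gg l m n ν J x ≠ 0) : |x (2 * m)| ≤ 2 * Ex (n + 2) := by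
  have h1 := b_ne (left_ne_zero_of_mul (left_ne_zero_of_mul (left_ne_zero_of_mul h)))
  rw [abs_div, abs_of_pos (Ex_pos _), div_lt_iff₀ (Ex_pos _)] at h1
  exact h1.le

lemma raw_lip (l : ℕ) : ∃ w : ℝ, 1 ≤ w ∧ ∀ m n ν J,
    Lip (fun x => x (2 * m) * gg l m n ν J x) w := by
  refine ⟨1 + 2 * (Lb + Lb / kap * Ex 5 + Lb / KK * Ex 2 + ∑ i ∈ range l, Lb * (4 * 2 ^ i * Ex 4)),
    ?_, fun m n ν J => ?_⟩
  · have := Lb_nonneg
    have := kap_pos
    have := KK_pos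
    have := Ex_pos 5
    have := Ex_pos 4
    have := Ex_pos 2
    have : 0 ≤ 2 * (Lb + Lb / kap * Ex 5 + Lb / KK * Ex 2 +
      ∑ i ∈ range l, Lb * (4 * 2 ^ i * Ex 4)) := by positivity
    linarith
  have h1 : Lip (fun x => x (2 * m) / Ex (n + 2)) (1 / Ex (n + 2)) := by
    have := (Lip.coord (2 * m) 0).smul (1 / Ex (n + 2))
    rw [abs_of_pos (div_pos one_pos (Ex_pos _)), mul_one] at this
    convert this using 2
    ring
  have h2 : Lip (cuts l n J) (∑ i ∈ range l, Lb * (4 / thr i n)) :=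
    Lip.prod01 _ (fun i _ => cut_lip _ (thr_pos i n) _) fun _ _ => cut_01 _ _ _
  have h3 : Lip (gg l m n ν J) _ :=
    ((h1.bcomp.mulU (chi_Lip n (2 * m + 1)) (U01.bcomp _) (chi_01 _ _)).mulU (loc_lip _ n ν)
      ((U01.bcomp _).mul (chi_01 _ _)) (loc_01 _ _ _)).mulU h2
      (((U01.bcomp _).mul (chi_01 _ _)).mul (loc_01 _ _ _)) (U01.prod _ fun _ _ => cut_01 _ _ _)
  have h4 := (Lip.coord (2 * m) 0).mul01 h3 (gg_01 _ _ _ _ _) (A := 2 * Ex (n + 2))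
    (fun x hx => by simpa using gg_amp hx) (by have := Ex_pos (n + 2); positivity)
  simp only [sub_zero] at h4
  refine h4.mono (le_of_eq ?_)
  have e1 : Ex (n + 2) = Ex (n - 3) * Ex 5 := by rw [← Ex_add]; congr 1; ring
  have e2 : Ex (n + 2) = Ex n * Ex 2 := Ex_add _ _
  have e3 : Ex (n + 2) = Ex (n - 2) * Ex 4 := by rw [← Ex_add]; congr 1; ring
  have p1 := (Ex_pos (n + 2)).ne'
  have p2 := (Ex_pos (n - 3)).ne'
  have p3 := (Ex_pos n).ne'
  have p4 := (Ex_pos (n - 2)).ne'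
  have p5 := KK_pos.ne'
  have f1 : Ex (n + 2) * (Lb * (1 / Ex (n + 2))) = Lb := by field_simp
  have f2 : Ex (n + 2) * (Lb / kap / Ex (n - 3)) = Lb / kap * Ex 5 := by rw [e1]; field_simp
  have f3 : Ex (n + 2) * (Lb / (KK * Ex n)) = Lb / KK * Ex 2 := by rw [e2]; field_simp
  have f4 : Ex (n + 2) * ∑ i ∈ range l, Lb * (4 / thr i n) =
      ∑ i ∈ range l, Lb * (4 * 2 ^ i * Ex 4) := by
    rw [mul_sum]
    refine sum_congr rfl fun i _ => ?_
    unfold thr; rw [e3]; field_simp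
  rw [← f2, ← f3, ← f4]
  linear_combination 2 * f1

noncomputable def ww (l : ℕ) : ℝ := 2 ^ l * (raw_lip l).choose

lemma ww_ge (l : ℕ) : 1 ≤ ww l :=
  one_le_mul_of_one_le_of_one_le (one_le_pow₀ one_le_two) (raw_lip l).choose_spec.1
lemma ww_pos (l : ℕ) : 0 < ww l := one_pos.trans_le (ww_ge l)

noncomputable def anc (l m : ℕ) (n : ℤ) (ν : ℕ → ℤ) (J : ℕ → Finset ℕ) (x : ℕ → ℝ) : ℝ :=
  x (2 * m) * gg l m n ν J x / ww l

lemma anc_lip (l m : ℕ) (n : ℤ) (ν : ℕ → ℤ) (J : ℕ → Finset ℕ) :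
    Lip (anc l m n ν J) (1 / 2 ^ l) := by
  have h := ((raw_lip l).choose_spec.2 m n ν J).smul (1 / ww l)
  have h0 : (raw_lip l).choose ≠ 0 := (one_pos.trans_le (raw_lip l).choose_spec.1).ne'
  rw [abs_of_pos (div_pos one_pos (ww_pos l))] at h
  convert h using 1
  · funext x; unfold anc; ring
  · unfold ww; field_simp

lemma anc_lip1 (l m : ℕ) (n : ℤ) (ν : ℕ → ℤ) (J : ℕ → Finset ℕ) : Lip (anc l m n ν J) 1 :=
  (anc_lip l m n ν J).mono (div_le_one_of_le₀ (one_le_pow₀ one_le_two) (by positivity))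

lemma anc_sm (l m : ℕ) (n : ℤ) (ν : ℕ → ℤ) (J : ℕ → Finset ℕ) : Sm (anc l m n ν J) :=
  ((Sm.coord _).mul ((((((Sm.coord _).div _).comp b_cd).mul ((Sm.coord _).comp (chi_cd n))).mul
    (loc_sm _ _ _)).mul (Sm.prod _ fun _ _ => cut_sm _ _ _))).div _

lemma anc_ne {l m : ℕ} {n : ℤ} {ν : ℕ → ℤ} {J : ℕ → Finset ℕ} {x : ℕ → ℝ}
    (h : anc l m n ν J x ≠ 0) : gg l m n ν J x ≠ 0 := fun h' => h (by simp [anc, h'])

lemma anc_abs (l m : ℕ) (n : ℤ) (ν : ℕ → ℤ) (J : ℕ → Finset ℕ) (x : ℕ → ℝ) :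
    |anc l m n ν J x| * ww l ≤ |x (2 * m)| := by
  unfold anc
  rw [abs_div, abs_of_pos (ww_pos l), div_mul_cancel₀ _ (ww_pos l).ne', abs_mul,
    abs_of_nonneg (gg_01 l m n ν J x).1]
  exact mul_le_of_le_one_right (abs_nonneg _) (gg_01 l m n ν J x).2

lemma anc_amp (l m : ℕ) (n : ℤ) (ν : ℕ → ℤ) (J : ℕ → Finset ℕ) (x : ℕ → ℝ) :
    |anc l m n ν J x| ≤ 2 * Ex 2 * Ex n := by
  by_cases h : anc l m n ν J x = 0
  · rw [h, abs_zero]; have := Ex_pos n; have := Ex_pos 2; positivity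
  · have h1 := gg_amp (anc_ne h)
    have h2 := anc_abs l m n ν J x
    have h3 := le_mul_of_one_le_right (abs_nonneg (anc l m n ν J x)) (ww_ge l)
    rw [Ex_add] at h1
    linarith

lemma anc_anchor {l m : ℕ} {n : ℤ} {ν : ℕ → ℤ} {J : ℕ → Finset ℕ} {x : ℕ → ℝ}
    (h : anc l m n ν J x ≠ 0) : Ex (n - 2) < x (2 * m + 1) ∧ x (2 * m + 1) < Ex (n + 2) :=
  chi_ne (right_ne_zero_of_mul (left_ne_zero_of_mul (left_ne_zero_of_mul (anc_ne h))))

lemma anc_loc {l m : ℕ} {n : ℤ} {ν : ℕ → ℤ} {J : ℕ → Finset ℕ} {x : ℕ → ℝ}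
    (h : anc l m n ν J x ≠ 0) {j : ℕ} (hj : j < 2 * m) : |tt n x j - ν j| < 2 :=
  loc_ne (right_ne_zero_of_mul (left_ne_zero_of_mul (anc_ne h))) hj

lemma anc_box {l m : ℕ} {n : ℤ} {ν : ℕ → ℤ} {J : ℕ → Finset ℕ} {x : ℕ → ℝ}
    (h : anc l m n ν J x ≠ 0) {j : ℕ} (hj : j < 2 * m) :
    |x j - ν j * (KK * Ex n) / eps j| ≤ 2 * KK / eps j * Ex n := by
  have h1 := anc_loc h hj
  have p1 := eps_pos j
  have p2 := mul_pos KK_pos (Ex_pos n)
  have e : x j - ν j * (KK * Ex n) / eps j = (tt n x j - ν j) * (KK * Ex n / eps j) := by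
    have p3 := KK_pos.ne'
    have p4 := (Ex_pos n).ne'
    unfold tt; field_simp
  rw [e, abs_mul, abs_of_pos (div_pos p2 p1)]
  calc _ ≤ 2 * (KK * Ex n / eps j) := mul_le_mul_of_nonneg_right h1.le (div_pos p2 p1).le
    _ = _ := by ring

lemma anc_dep (l m : ℕ) (n : ℤ) (ν : ℕ → ℤ) (J : ℕ → Finset ℕ) :
    ∃ M, (∀ i < l, ∀ j ∈ J i, j < M) ∧ Dep (anc l m n ν J) M := by
  set M := max (2 * m + 2) (((range l).biUnion J).sup id + 1) with hM
  have h1 : ∀ i < l, ∀ j ∈ J i, j < M := fun i hi j hj => by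
    have := Finset.le_sup (f := id) (mem_biUnion.2 ⟨i, mem_range.2 hi, hj⟩)
    simp only [id] at this
    omega
  refine ⟨M, h1, fun x y h => ?_⟩
  unfold anc gg loc cuts tt
  rw [h (2 * m) (by omega), h (2 * m + 1) (by omega),
    prod_congr rfl fun j hj => by rw [h j (by have := mem_range.1 hj; omega)],
    prod_congr rfl fun i hi => cut_dep (y := y) fun j hj => h j (h1 i (mem_range.1 hi) j hj)]

lemma anc_succ (l m : ℕ) (n : ℤ) (ν : ℕ → ℤ) (J : ℕ → Finset ℕ) (J' : Finset ℕ) (x : ℕ → ℝ) :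
    anc l m n ν J x * cut J' (thr l n) 0 x =
      ww (l + 1) / ww l * anc (l + 1) m n ν (Function.update J l J') x := by
  have : cuts (l + 1) n (Function.update J l J') x = cuts l n J x * cut J' (thr l n) 0 x := by
    unfold cuts
    rw [prod_range_succ, Function.update_self]
    congr 1
    exact prod_congr rfl fun i hi => by rw [Function.update_of_ne (mem_range.1 hi).ne]
  have p1 := (ww_pos l).ne'
  have p2 := (ww_pos (l + 1)).ne'
  unfold anc gg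
  rw [this]; field_simp

lemma anc_eq {l m : ℕ} {n : ℤ} {ν ν' : ℕ → ℤ} {J J' : ℕ → Finset ℕ} {x : ℕ → ℝ}
    (hν : ∀ j < 2 * m, ν j = ν' j)
    (h : ∀ i < l, ∀ j, (j ∈ J i ↔ j ∈ J' i) ∨ |x j| ≤ thr l n) :
    anc l m n ν J x = anc l m n ν' J' x := by
  unfold anc gg loc cuts
  rw [prod_congr rfl fun j hj => by rw [hν j (mem_range.1 hj)],
    prod_congr rfl fun i hi => cut_eq (J' := J' i) (thr_pos i n) fun j =>
      (h i (mem_range.1 hi) j).imp id fun h' => by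
        simpa using h'.trans (thr_half (mem_range.1 hi) n)]

/- the small kind -/
noncomputable def sz (n : ℕ) (ν : ℕ → ℤ) (j : ℕ) : ℝ := ν j / (4 * 2 ^ n)

noncomputable def wS : ℝ := 1 + 4 * Lb
lemma wS_ge : 1 ≤ wS := by unfold wS; linarith [Lb_nonneg]
lemma wS_pos : 0 < wS := one_pos.trans_le wS_ge

noncomputable def sml (n M j : ℕ) (ν : ℕ → ℤ) (x : ℕ → ℝ) : ℝ :=
  (x j - sz n ν j) * cut (range M) (1 / 2 ^ n) (sz n ν) x / wS

lemma sml_lip {n M j : ℕ} (hj : j < M) (ν : ℕ → ℤ) : Lip (sml n M j ν) 1 := by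
  have p : (0 : ℝ) < 1 / 2 ^ n := by positivity
  have h := ((Lip.coord j (sz n ν j)).mul01 (cut_lip (range M) p (sz n ν)) (cut_01 _ _ _)
    (A := 1 / 2 ^ n) (fun x hx => (cut_ne p hx (mem_range.2 hj)).le) p.le).smul (1 / wS)
  rw [abs_of_pos (div_pos one_pos wS_pos)] at h
  convert h using 1
  · funext x; unfold sml; ring
  · have := wS_pos.ne'
    field_simp; unfold wS; ring

lemma sml_sm (n M j : ℕ) (ν : ℕ → ℤ) : Sm (sml n M j ν) :=
  (((Sm.coord j).sub (Sm.const _)).mul (cut_sm _ _ _)).div _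

lemma sml_box {n M j : ℕ} {ν : ℕ → ℤ} {x : ℕ → ℝ} (h : sml n M j ν x ≠ 0) {i : ℕ} (hi : i < M) :
    |x i - sz n ν i| < 1 / 2 ^ n :=
  cut_ne (by positivity) (fun h' => h (by simp only [sml, h', mul_zero, zero_div]))
    (mem_range.2 hi)

lemma sml_amp {n M j : ℕ} (hj : j < M) (ν : ℕ → ℤ) (x : ℕ → ℝ) :
    |sml n M j ν x| * wS ≤ 1 / 2 ^ n := by
  by_cases h : sml n M j ν x = 0
  · rw [h, abs_zero, zero_mul]; positivity
  · have h1 := sml_box h hj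
    unfold sml
    rw [abs_div, abs_of_pos wS_pos, div_mul_cancel₀ _ wS_pos.ne', abs_mul,
      abs_of_nonneg (cut_01 _ _ _ x).1]
    exact (mul_le_of_le_one_right (abs_nonneg _) (cut_01 _ _ _ x).2).trans h1.le

lemma sml_dep {n M j : ℕ} (hj : j < M) (ν : ℕ → ℤ) : Dep (sml n M j ν) M := fun x y h => by
  unfold sml
  rw [h j hj, cut_dep (y := y) fun i hi => h i (mem_range.1 hi)]

lemma sml_eq {n M j : ℕ} (hj : j < M) {ν ν' : ℕ → ℤ} (h : ∀ i < M, ν i = ν' i) :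
    sml n M j ν = sml n M j ν' := by
  funext x
  have : msk (range M) (1 / 2 ^ n) (sz n ν) x = msk (range M) (1 / 2 ^ n) (sz n ν') x := by
    funext i
    unfold msk sz
    split_ifs with hi
    · rw [h i (mem_range.1 hi)]
    · rfl
  unfold sml cut
  rw [this]; unfold sz; rw [h j hj]

def Phi : Set ((ℕ → ℝ) → ℝ) :=
  {f | (∃ l m n ν J, f = anc l m n ν J) ∨ ∃ n M j ν, j < M ∧ M ≤ n ∧ f = sml n M j ν}

end Vale.Agent.P124
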