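import Vale.Agent.P124.Basic

namespace Vale.Agent.P124
open Finset Filter Topology

noncomputable def msk (J : Finset ℕ) (τ : ℝ) (ζ x : ℕ → ℝ) : ℕ → ℝ :=
  fun j => if j ∈ J then 4 * (x j - ζ j) / τ else 0

noncomputable def cut (J : Finset ℕ) (τ : ℝ) (ζ x : ℕ → ℝ) : ℝ :=
  b (mx (msk J τ ζ x) (J.sup id + 1) - 2)

lemma cut_01 (J : Finset ℕ) (τ : ℝ) (ζ : ℕ → ℝ) : U01 (cut J τ ζ) := U01.bcomp _

lemma msk_out (J : Finset ℕ) (τ : ℝ) (ζ x : ℕ → ℝ) (j : ℕ) (hj : J.sup id + 1 ≤ j) :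
    |msk J τ ζ x j| ≤ 2 := by
  have : j ∉ J := fun h => by
    have := Finset.le_sup (f := id) h
    simp only [id] at this
    omega
  simp [msk, this]

lemma msk_small (J : Finset ℕ) {τ : ℝ} (hτ : 0 < τ) (ζ x : ℕ → ℝ) (j : ℕ)
    (h : j ∈ J → |x j - ζ j| ≤ τ / 2) : |msk J τ ζ x j| ≤ 2 := by
  unfold msk
  split_ifs with hj
  · rw [abs_div, abs_mul, abs_of_pos hτ, div_le_iff₀ hτ, abs_of_pos (by norm_num : (0 : ℝ) < 4)]
    linarith [h hj]
  · simp

lemma cut_lip (J : Finset ℕ) {τ : ℝ} (hτ : 0 < τ) (ζ : ℕ → ℝ) :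
    Lip (cut J τ ζ) (Lb * (4 / τ)) := by
  refine Lip.bcomp (f := fun x => mx (msk J τ ζ x) (J.sup id + 1) - 2) ?_
  intro x y t hn
  have : Near (msk J τ ζ x) (msk J τ ζ y) (4 / τ * t) := by
    intro j
    unfold msk
    split_ifs
    · rw [show 4 * (x j - ζ j) / τ - 4 * (y j - ζ j) / τ = 4 / τ * (x j - y j) by ring, abs_mul,
        abs_of_pos (by positivity : (0 : ℝ) < 4 / τ)]
      exact mul_le_mul_of_nonneg_left (hn j) (by positivity)
    · have := hn.nonneg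
      simp only [sub_self, abs_zero]; positivity
  simpa using mx_lip this (J.sup id + 1)

lemma cut_ne {J : Finset ℕ} {τ : ℝ} (hτ : 0 < τ) {ζ x : ℕ → ℝ} (h : cut J τ ζ x ≠ 0) {j : ℕ}
    (hj : j ∈ J) : |x j - ζ j| < τ := by
  have h1 := b_ne h
  have h2 := mx_ge_abs (msk J τ ζ x) (j := j) (M := J.sup id + 1)
    (Nat.lt_succ_of_le (Finset.le_sup (f := id) hj))
  have h3 : |msk J τ ζ x j| < 4 := by
    rw [abs_lt] at h1; linarith
  simp only [msk, hj, if_true] at h3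
  rw [abs_div, abs_mul, abs_of_pos hτ, div_lt_iff₀ hτ,
    abs_of_pos (by norm_num : (0 : ℝ) < 4)] at h3
  linarith

lemma cut_one {J : Finset ℕ} {τ : ℝ} (hτ : 0 < τ) {ζ x : ℕ → ℝ}
    (h : ∀ j ∈ J, |x j - ζ j| ≤ τ / 2) : cut J τ ζ x = 1 := by
  unfold cut
  rw [mx_ext (M := 0) _ (Nat.zero_le _) fun j _ => msk_small J hτ ζ x j (h j)]
  exact b_one (by norm_num [mx])

lemma cut_eq {J J' : Finset ℕ} {τ : ℝ} (hτ : 0 < τ) {ζ x : ℕ → ℝ}
    (h : ∀ j, (j ∈ J ↔ j ∈ J') ∨ |x j - ζ j| ≤ τ / 2) : cut J τ ζ x = cut J' τ ζ x := by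
  unfold cut
  rw [mx_congr (u' := msk J' τ ζ x) (M' := J'.sup id + 1) ?_ (msk_out J τ ζ x)
    (msk_out J' τ ζ x)]
  intro j
  rcases h j with h1 | h1
  · left; simp only [msk, h1]
  · right; exact ⟨msk_small J hτ ζ x j fun _ => h1, msk_small J' hτ ζ x j fun _ => h1⟩

def Dep (f : (ℕ → ℝ) → ℝ) (M : ℕ) : Prop := ∀ x y, (∀ j < M, x j = y j) → f x = f y

def Box (M : ℕ) (ζ : ℕ → ℝ) (ρ : ℝ) (x : ℕ → ℝ) : Prop := ∀ j < M, |x j - ζ j| ≤ ρ

lemma Box.mono {M M' : ℕ} {ζ x : ℕ → ℝ} {ρ ρ' : ℝ} (h : Box M ζ ρ x) (hM : M' ≤ M)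
    (hρ : ρ ≤ ρ') : Box M' ζ ρ' x := fun j hj => (h j (hj.trans_le hM)).trans hρ

lemma cut_dep {J : Finset ℕ} {τ : ℝ} {ζ x y : ℕ → ℝ} (h : ∀ j ∈ J, x j = y j) :
    cut J τ ζ x = cut J τ ζ y := by
  have : msk J τ ζ x = msk J τ ζ y := by
    funext j
    unfold msk
    split_ifs with hj
    · rw [h j hj]
    · rfl
  unfold cut; rw [this]

def ext0 (M : ℕ) (v : Fin M → ℝ) : ℕ → ℝ := fun j => if h : j < M then v ⟨j, h⟩ else 0

def Sm (f : (ℕ → ℝ) → ℝ) : Prop := ∀ M, ContDiff ℝ 1 fun v : Fin M → ℝ => f (ext0 M v)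

lemma Sm.const (c : ℝ) : Sm fun _ => c := fun _ => contDiff_const

lemma Sm.coord (j : ℕ) : Sm fun x => x j := fun M => by
  unfold ext0
  by_cases h : j < M
  · simp only [h, dif_pos]; exact contDiff_apply ℝ ℝ _
  · simp only [h, dif_neg, not_false_eq_true]; exact contDiff_const

lemma Sm.add {f g : (ℕ → ℝ) → ℝ} (hf : Sm f) (hg : Sm g) : Sm fun x => f x + g x :=
  fun M => (hf M).add (hg M)

lemma Sm.sub {f g : (ℕ → ℝ) → ℝ} (hf : Sm f) (hg : Sm g) : Sm fun x => f x - g x :=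
  fun M => (hf M).sub (hg M)

lemma Sm.neg {f : (ℕ → ℝ) → ℝ} (hf : Sm f) : Sm fun x => -f x := fun M => (hf M).neg

lemma Sm.mul {f g : (ℕ → ℝ) → ℝ} (hf : Sm f) (hg : Sm g) : Sm fun x => f x * g x :=
  fun M => (hf M).mul (hg M)

lemma Sm.div {f : (ℕ → ℝ) → ℝ} (hf : Sm f) (c : ℝ) : Sm fun x => f x / c :=
  fun M => (hf M).div_const c

lemma Sm.comp {f : (ℕ → ℝ) → ℝ} (hf : Sm f) {G : ℝ → ℝ} (hG : ContDiff ℝ 1 G) :
    Sm fun x => G (f x) := fun M => hG.comp (hf M)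

lemma Sm.prod {ι : Type*} (s : Finset ι) {g : ι → (ℕ → ℝ) → ℝ} (h : ∀ i ∈ s, Sm (g i)) :
    Sm fun x => ∏ i ∈ s, g i x := fun M => contDiff_prod fun i hi => h i hi M

lemma Sm.S {f g : (ℕ → ℝ) → ℝ} (hf : Sm f) (hg : Sm g) : Sm fun x => S (f x) (g x) :=
  hf.add ((hg.sub hf).comp vp_cd)

lemma Sm.mx {u : (ℕ → ℝ) → ℕ → ℝ} (h : ∀ j, Sm fun x => u x j) (M : ℕ) :
    Sm fun x => mx (u x) M := by
  induction M with
  | zero => exact Sm.const 3
  | succ n ih => exact (ih.S (h n)).S (h n).neg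

lemma cut_sm (J : Finset ℕ) (τ : ℝ) (ζ : ℕ → ℝ) : Sm (cut J τ ζ) := by
  refine Sm.comp (f := fun x => mx (msk J τ ζ x) (J.sup id + 1) - 2) ?_ b_cd
  refine (Sm.mx (fun j => ?_) _).sub (Sm.const 2)
  unfold msk
  split_ifs
  · exact ((Sm.const 4).mul ((Sm.coord j).sub (Sm.const _))).div τ
  · exact Sm.const 0

/-- first order approximation near a point -/
lemma sd {f : (ℕ → ℝ) → ℝ} {M : ℕ} (hS : Sm f) (hD : Dep f M) (hL : Lip f 1) (ζ : ℕ → ℝ)
    {η : ℝ} (hη : 0 < η) : ∃ (a : ℕ → ℝ) (δ : ℝ), 0 < δ ∧ ∑ j ∈ range M, |a j| ≤ 1 ∧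
      ∀ x y t, Box M ζ δ x → Box M ζ δ y → Near x y t →
        |f x - f y - ∑ j ∈ range M, a j * (x j - y j)| ≤ η * t := by
  set g : (Fin M → ℝ) → ℝ := fun v => f (ext0 M v) with hg
  set res : (ℕ → ℝ) → Fin M → ℝ := fun x j => x j with hres
  have hfg : ∀ x, f x = g (res x) := fun x => hD _ _ fun j hj => by simp [ext0, hj, hres]
  have hlip : LipschitzWith 1 g := LipschitzWith.of_dist_le_mul fun v w => by
    have := hL (ext0 M v) (ext0 M w) (dist v w) fun j => by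
      unfold ext0
      split_ifs with hj
      · rw [← Real.dist_eq]; exact dist_le_pi_dist v w _
      · simp
    simpa [Real.dist_eq] using this
  set A := fderiv ℝ g (res ζ) with hA
  have hA1 : ‖A‖ ≤ 1 := by simpa using norm_fderiv_le_of_lipschitz ℝ hlip (x₀ := res ζ)
  have hs : HasStrictFDerivAt g A (res ζ) := (hS M).contDiffAt.hasStrictFDerivAt one_ne_zero
  have h1 := hs.isLittleO.def hη
  rw [Metric.eventually_nhds_iff] at h1
  obtain ⟨ε, hε, h1⟩ := h1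
  set a : ℕ → ℝ := fun i => A fun j => if i = j then 1 else 0 with ha
  have hAv : ∀ u : ℕ → ℝ, A (res u) = ∑ j ∈ range M, a j * u j := by
    intro u
    have := LinearMap.pi_apply_eq_sum_univ (A : (Fin M → ℝ) →ₗ[ℝ] ℝ) (res u)
    simp only [ContinuousLinearMap.coe_coe, smul_eq_mul] at this
    rw [this, Finset.sum_range]
    refine Finset.sum_congr rfl fun i _ => ?_
    simp only [ha, hres, Fin.ext_iff]
    ring
  refine ⟨a, ε / 2, by positivity, ?_, ?_⟩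
  · have h2 := hAv fun j => SignType.sign (a j)
    have h3 : ∑ j ∈ range M, |a j| = ∑ j ∈ range M, a j * SignType.sign (a j) :=
      Finset.sum_congr rfl fun j _ => by rw [mul_comm, sign_mul_self]
    rw [h3, ← h2]
    have h4 : ‖res fun j => (SignType.sign (a j) : ℝ)‖ ≤ 1 :=
      (pi_norm_le_iff_of_nonneg zero_le_one).2 fun j => by
        simp only [hres]
        rcases SignType.sign (a j) with _ | _ | _ <;> simp
    have h5 := A.le_opNorm (res fun j => (SignType.sign (a j) : ℝ))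
    have h6 := le_abs_self (A (res fun j => (SignType.sign (a j) : ℝ)))
    rw [Real.norm_eq_abs] at h5
    nlinarith [norm_nonneg A]
  · intro x y t hx hy hn
    have hd : ∀ x, Box M ζ (ε / 2) x → dist (res x) (res ζ) < ε := fun x hx =>
      (dist_pi_lt_iff hε).2 fun j => by
        have := hx j j.2
        simp only [hres, Real.dist_eq]; linarith
    have h2 := h1 (y := (res x, res y)) (by
      rw [Prod.dist_eq]; exact max_lt (hd x hx) (hd y hy))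
    have h3 : res x - res y = res fun j => x j - y j := rfl
    simp only at h2
    rw [h3, hAv fun j => x j - y j, ← hfg, ← hfg, Real.norm_eq_abs] at h2
    refine h2.trans (mul_le_mul_of_nonneg_left ?_ hη.le)
    exact (pi_norm_le_iff_of_nonneg hn.nonneg).2 fun j => hn j

end Vale.Agent.P124
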