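import Vale.Agent.P124.Cls

namespace Vale.Agent.P124
open Finset Filter Topology

abbrev C0 := ZeroAtInftyContinuousMap ℕ ℝ

lemma C0.tendsto (p : C0) : Tendsto (fun j => p j) atTop (𝓝 0) := by
  have := p.zero_at_infty'
  rwa [cocompact_eq_cofinite, Nat.cofinite_eq_atTop] at this

noncomputable def pr (μ : C0 →₀ ℝ) (f : (ℕ → ℝ) → ℝ) : ℝ :=
  ∑ p ∈ μ.support, μ p * (f p - f 0)

lemma pr_add (μ : C0 →₀ ℝ) (f g : (ℕ → ℝ) → ℝ) :
    pr μ (fun x => f x + g x) = pr μ f + pr μ g := by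
  unfold pr; rw [← sum_add_distrib]; exact sum_congr rfl fun _ _ => by ring

lemma pr_sub (μ : C0 →₀ ℝ) (f g : (ℕ → ℝ) → ℝ) :
    pr μ (fun x => f x - g x) = pr μ f - pr μ g := by
  unfold pr; rw [← sum_sub_distrib]; exact sum_congr rfl fun _ _ => by ring

lemma pr_smul (μ : C0 →₀ ℝ) (c : ℝ) (f : (ℕ → ℝ) → ℝ) :
    pr μ (fun x => c * f x) = c * pr μ f := by
  unfold pr; rw [mul_sum]; exact sum_congr rfl fun _ _ => by ring

lemma pr_sum {ι : Type*} (μ : C0 →₀ ℝ) (s : Finset ι) (f : ι → (ℕ → ℝ) → ℝ) :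
    pr μ (fun x => ∑ i ∈ s, f i x) = ∑ i ∈ s, pr μ (f i) := by
  unfold pr; rw [sum_comm]
  exact sum_congr rfl fun _ _ => by rw [← sum_sub_distrib, mul_sum]

lemma pr_congr {μ : C0 →₀ ℝ} {f g : (ℕ → ℝ) → ℝ} (h0 : f 0 = g 0)
    (h : ∀ p ∈ μ.support, f p = g p) : pr μ f = pr μ g :=
  sum_congr rfl fun p hp => by rw [h0, h p hp]

lemma pr_bound (μ : C0 →₀ ℝ) {f : (ℕ → ℝ) → ℝ} {α : ℝ} (h : ∀ x, |f x| ≤ α) :
    |pr μ f| ≤ 2 * α * ∑ p ∈ μ.support, |μ p| := by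
  unfold pr
  rw [mul_sum]
  refine (abs_sum_le_sum_abs _ _).trans (sum_le_sum fun p _ => ?_)
  rw [abs_mul, mul_comm]
  refine mul_le_mul_of_nonneg_right ?_ (abs_nonneg _)
  have := abs_sub (f p) (f 0)
  linarith [h p, h 0]

def Bd (f : (ℕ → ℝ) → ℝ) (K : ℝ) : Prop :=
  ∀ (μ : C0 →₀ ℝ) (c : ℝ), 0 ≤ c → (∀ φ ∈ Phi, |pr μ φ| ≤ c) → |pr μ f| ≤ K * c

lemma Bd.of_mem {f : (ℕ → ℝ) → ℝ} (h : f ∈ Phi) : Bd f 1 := fun μ c _ h' => by
  simpa using h' f h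

lemma Bd.mono {f : (ℕ → ℝ) → ℝ} {K K' : ℝ} (h : Bd f K) (hK : K ≤ K') : Bd f K' :=
  fun μ c hc h' => (h μ c hc h').trans (mul_le_mul_of_nonneg_right hK hc)

lemma Bd.sub {f g : (ℕ → ℝ) → ℝ} {K K' : ℝ} (h : Bd f K) (h' : Bd g K') :
    Bd (fun x => f x - g x) (K + K') := fun μ c hc h1 => by
  rw [pr_sub]
  have := abs_sub (pr μ f) (pr μ g)
  linarith [h μ c hc h1, h' μ c hc h1]

lemma Bd.smul {f : (ℕ → ℝ) → ℝ} {K : ℝ} (h : Bd f K) (a : ℝ) :
    Bd (fun x => a * f x) (|a| * K) := fun μ c hc h1 => by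
  rw [pr_smul, abs_mul, mul_assoc]
  exact mul_le_mul_of_nonneg_left (h μ c hc h1) (abs_nonneg _)

lemma Bd.sum {ι : Type*} (s : Finset ι) {f : ι → (ℕ → ℝ) → ℝ} {K : ι → ℝ}
    (h : ∀ i ∈ s, Bd (f i) (K i)) : Bd (fun x => ∑ i ∈ s, f i x) (∑ i ∈ s, K i) :=
  fun μ c hc h1 => by
    rw [pr_sum, sum_mul]
    exact (abs_sum_le_sum_abs _ _).trans (sum_le_sum fun i hi => h i hi μ c hc h1)

def HH (μ : ℕ → C0 →₀ ℝ) (C : ℝ) : Prop :=
  ∀ (n : ℕ) (f : (ℕ → ℝ) → ℝ), Lip f (1 / 2 ^ n) → Bd f (2 ^ n) →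
    ∀ (s : Finset ℕ) (t : ℕ → ℝ), (∀ k, |t k| ≤ 1) → |∑ k ∈ s, t k * pr (μ k) f| ≤ C

variable {μ : ℕ → C0 →₀ ℝ} {C : ℝ}

lemma HH.scale (H : HH μ C) (n : ℕ) {f : (ℕ → ℝ) → ℝ} {L K : ℝ} (hL : Lip f L) (hB : Bd f K)
    (hK : 0 < K) (s : Finset ℕ) (t : ℕ → ℝ) (ht : ∀ k, |t k| ≤ 1) :
    |∑ k ∈ s, t k * pr (μ k) f| ≤ C * (2 ^ n * L + K / 2 ^ n) := by
  have hL0 := hL.nonneg
  set D := 2 ^ n * L + K / 2 ^ n with hD
  have p2 : (0 : ℝ) < 2 ^ n := by positivity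
  have hD0 : 0 < D := by positivity
  have h := H n (fun x => 1 / D * f x) ((hL.smul _).mono ?_) ((hB.smul _).mono ?_) s t ht
  · simp only [pr_smul] at h
    have e : ∑ k ∈ s, t k * (1 / D * pr (μ k) f) = (∑ k ∈ s, t k * pr (μ k) f) / D := by
      rw [sum_div]; exact sum_congr rfl fun _ _ => by ring
    rwa [e, abs_div, abs_of_pos hD0, div_le_iff₀ hD0] at h
  · rw [abs_of_pos (by positivity), div_mul_eq_mul_div, div_le_div_iff₀ hD0 p2, hD]
    have : 0 ≤ K / 2 ^ n := by positivity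
    linarith
  · rw [abs_of_pos (by positivity), div_mul_eq_mul_div, div_le_iff₀ hD0, hD, mul_add,
      mul_div_cancel₀ _ p2.ne']
    have : 0 ≤ 2 ^ n * (2 ^ n * L) := by positivity
    linarith

lemma sgn_ex (a : ℕ → ℝ) : ∃ t : ℕ → ℝ, (∀ k, |t k| = 1) ∧ ∀ k, t k * a k = |a k| :=
  ⟨fun k => if 0 ≤ a k then 1 else -1, fun k => by dsimp only; split_ifs <;> simp, fun k => by
    dsimp only
    split_ifs with h
    · rw [one_mul, abs_of_nonneg h]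
    · rw [abs_of_neg (not_le.1 h)]; ring⟩

lemma HH.tendsto (H : HH μ C) {f : (ℕ → ℝ) → ℝ} (hL : Lip f 1) (hB : Bd f 1) :
    Tendsto (fun k => |pr (μ k) f|) atTop (𝓝 0) := by
  obtain ⟨t, ht, ht'⟩ := sgn_ex fun k => pr (μ k) f
  refine Summable.tendsto_atTop_zero (summable_of_sum_le (c := C) (fun _ => abs_nonneg _)
    fun s => ?_)
  have := H 0 f (by simpa using hL) (by simpa using hB) s t fun k => (ht k).le
  simp only [ht'] at this
  exact (le_abs_self _).trans this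

lemma sign_lemma (a : ℕ → ℕ → ℝ) (s : Finset ℕ) : ∃ e : ℕ → ℝ, (∀ k, |e k| = 1) ∧
    ∑ i ∈ s, a i i ≤ ∑ i ∈ s, ∑ j ∈ s, e i * e j * a i j := by
  induction s using Finset.induction_on with
  | empty => exact ⟨fun _ => 1, by simp, by simp⟩
  | insert k s hk ih =>
    obtain ⟨e, he, h⟩ := ih
    obtain ⟨t, ht, ht'⟩ := sgn_ex fun _ => ∑ j ∈ s, e j * (a k j + a j k)
    refine ⟨Function.update e k (t 0), fun i => ?_, ?_⟩
    · rcases eq_or_ne i k with rfl | hi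
      · simp [ht]
      · rw [Function.update_of_ne hi, he]
    · have hu : ∀ i ∈ s, Function.update e k (t 0) i = e i := fun i hi =>
        Function.update_of_ne (ne_of_mem_of_not_mem hi hk) _ _
      simp only [sum_insert hk, Function.update_self]
      have g1 : ∑ j ∈ s, t 0 * Function.update e k (t 0) j * a k j =
          ∑ j ∈ s, t 0 * e j * a k j := sum_congr rfl fun j hj => by rw [hu j hj]
      have g2 : ∑ i ∈ s, (Function.update e k (t 0) i * t 0 * a i k +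
          ∑ j ∈ s, Function.update e k (t 0) i * Function.update e k (t 0) j * a i j) =
          ∑ i ∈ s, (e i * t 0 * a i k + ∑ j ∈ s, e i * e j * a i j) :=
        sum_congr rfl fun i hi => by
          rw [hu i hi]; congr 1; exact sum_congr rfl fun j hj => by rw [hu j hj]
      rw [g1, g2, sum_add_distrib]
      have h1 : t 0 * t 0 = 1 := by rw [← abs_mul_abs_self, ht]; norm_num
      have h2 : ∑ j ∈ s, t 0 * e j * a k j + ∑ i ∈ s, e i * t 0 * a i k =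
          t 0 * ∑ j ∈ s, e j * (a k j + a j k) := by
        rw [← sum_add_distrib, mul_sum]; exact sum_congr rfl fun _ _ => by ring
      have h3 := abs_nonneg (∑ j ∈ s, e j * (a k j + a j k))
      rw [h1]
      linarith [ht' 0]

theorem lemD (H : HH μ C) {L K c : ℝ} (hK : 0 < K) (hc : 0 < c)
    (h : ∀ η > 0, ∀ N : ℕ, ∃ (s : Finset ℕ) (ψ : ℕ → (ℕ → ℝ) → ℝ), s.card = N ∧
      (∀ k ∈ s, Bd (ψ k) K ∧ c ≤ |pr (μ k) (ψ k)|) ∧
      ∀ e : ℕ → ℝ, (∀ k, |e k| ≤ 1) → Lip (fun x => ∑ k ∈ s, e k * ψ k x) (L + N * η)) :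
    False := by
  have hC : 0 ≤ C := by
    have := H 0 (fun _ => 0) ((Lip.const 0).mono (by norm_num))
      (fun μ c hc _ => by simpa [pr] using hc) ∅ (fun _ => 0) (by simp)
    simpa using this
  obtain ⟨n, hn⟩ := pow_unbounded_of_one_lt (4 * C * K / c) (one_lt_two (α := ℝ))
  obtain ⟨N, hN⟩ := exists_nat_gt (4 * C * 2 ^ n * |L| / c)
  have p2 : (0 : ℝ) < 2 ^ n := by positivity
  have hN0 : (0 : ℝ) < N := lt_of_le_of_lt (by positivity) hN
  obtain ⟨s, ψ, hs, h1, h2⟩ := h (c / (4 * (C * 2 ^ n + 1))) (by positivity) N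
  obtain ⟨t, ht, ht'⟩ := sgn_ex fun k => pr (μ k) (ψ k)
  obtain ⟨e, he, h3⟩ := sign_lemma (fun i j => t i * pr (μ i) (ψ j)) s
  have hB : Bd (fun x => ∑ k ∈ s, e k * ψ k x) (N * K) := by
    have := Bd.sum s (f := fun k x => e k * ψ k x) (K := fun _ => K) fun k hk => by
      simpa [he] using (h1 k hk).1.smul (e k)
    simpa [hs] using this
  have h4 := H.scale n (h2 e fun k => (he k).le) hB (by positivity) s (fun k => e k * t k)
    fun k => by rw [abs_mul, he, ht]; norm_num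
  have h5 : ∑ i ∈ s, ∑ j ∈ s, e i * e j * (t i * pr (μ i) (ψ j)) =
      ∑ k ∈ s, e k * t k * pr (μ k) fun x => ∑ k ∈ s, e k * ψ k x := by
    refine sum_congr rfl fun i _ => ?_
    rw [pr_sum, mul_sum]
    exact sum_congr rfl fun j _ => by rw [pr_smul]; ring
  have h6 : N * c ≤ ∑ i ∈ s, t i * pr (μ i) (ψ i) := by
    have := Finset.card_nsmul_le_sum s (fun i => t i * pr (μ i) (ψ i)) c fun k hk => by
      rw [ht']; exact (h1 k hk).2
    simpa [hs] using this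
  have h7 := h6.trans (h3.trans (h5.le.trans ((le_abs_self _).trans h4)))
  rw [div_lt_iff₀ hc] at hn hN
  have a1 : C * (N * K / 2 ^ n) ≤ N * c / 4 := by
    rw [← mul_div_assoc, div_le_div_iff₀ p2 (by norm_num)]; nlinarith
  have a2 : C * (2 ^ n * L) ≤ N * c / 4 := by
    have := mul_le_mul_of_nonneg_left (le_abs_self L) (by positivity : 0 ≤ C * 2 ^ n)
    linarith
  have a3 : C * (2 ^ n * (N * (c / (4 * (C * 2 ^ n + 1))))) ≤ N * c / 4 := by
    have : C * (2 ^ n * (N * (c / (4 * (C * 2 ^ n + 1))))) =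
        N * c / 4 * (C * 2 ^ n / (C * 2 ^ n + 1)) := by field_simp
    rw [this]
    exact mul_le_of_le_one_right (by positivity)
      (div_le_one_of_le₀ (by linarith) (by positivity))
  have : 0 < N * c := by positivity
  nlinarith

lemma lip_disj (s : Finset ℕ) {ψ : ℕ → (ℕ → ℝ) → ℝ} {L : ℝ} (hL0 : 0 ≤ L)
    (hL : ∀ k ∈ s, Lip (ψ k) L)
    (hd : ∀ k ∈ s, ∀ k' ∈ s, k ≠ k' → ∀ x, ψ k x = 0 ∨ ψ k' x = 0) (e : ℕ → ℝ)
    (he : ∀ k, |e k| ≤ 1) : Lip (fun x => ∑ k ∈ s, e k * ψ k x) (2 * L) := by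
  classical
  intro x y t hn
  have hc : ∀ x, (s.filter fun k => ψ k x ≠ 0).card ≤ 1 := fun x =>
    card_le_one.2 fun i hi j hj => by
      by_contra hij
      rw [mem_filter] at hi hj
      rcases hd i hi.1 j hj.1 hij x with h | h
      · exact hi.2 h
      · exact hj.2 h
  set T := (s.filter fun k => ψ k x ≠ 0) ∪ (s.filter fun k => ψ k y ≠ 0) with hT
  have hTs : T ⊆ s := union_subset (filter_subset _ _) (filter_subset _ _)
  have hT2 : T.card ≤ 2 := (card_union_le _ _).trans (by linarith [hc x, hc y])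
  rw [← sum_sub_distrib, ← sum_subset hTs]
  · refine (abs_sum_le_sum_abs _ _).trans ?_
    refine (sum_le_card_nsmul T _ (L * t) fun k hk => ?_).trans ?_
    · rw [← mul_sub, abs_mul]
      exact (mul_le_of_le_one_left (abs_nonneg _) (he k)).trans (hL k (hTs hk) x y t hn)
    · rw [nsmul_eq_mul, mul_assoc]
      exact mul_le_mul_of_nonneg_right (by exact_mod_cast hT2) (mul_nonneg hL0 hn.nonneg)
  · intro k hk hk'
    simp only [hT, mem_union, mem_filter, hk, true_and, not_or, not_not] at hk'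
    simp [hk'.1, hk'.2]

theorem lemD' (H : HH μ C) {L K c : ℝ} (hL : 0 ≤ L) (hK : 0 < K) (hc : 0 < c)
    (h : ∀ N : ℕ, ∃ (s : Finset ℕ) (ψ : ℕ → (ℕ → ℝ) → ℝ), s.card = N ∧
      (∀ k ∈ s, Bd (ψ k) K ∧ Lip (ψ k) L ∧ c ≤ |pr (μ k) (ψ k)|) ∧
      ∀ k ∈ s, ∀ k' ∈ s, k ≠ k' → ∀ x, ψ k x = 0 ∨ ψ k' x = 0) : False := by
  refine lemD H (L := 2 * L) hK hc fun η hη N => ?_
  obtain ⟨s, ψ, h1, h2, h3⟩ := h N
  refine ⟨s, ψ, h1, fun k hk => ⟨(h2 k hk).1, (h2 k hk).2.2⟩, fun e he => ?_⟩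
  refine (lip_disj s hL (fun k hk => (h2 k hk).2.1) h3 e he).mono ?_
  have : 0 ≤ N * η := by positivity
  linarith

theorem clique (H : HH μ C) {F : Filter ℕ} [F.NeBot] (hF : F ≤ atTop) {c : ℝ} (hc : 0 < c)
    {φ : ℕ → (ℕ → ℝ) → ℝ}
    (h : ∀ᶠ k in F, (Bd (φ k) 1 ∧ Lip (φ k) 1 ∧ c ≤ |pr (μ k) (φ k)|) ∧
      ∀ᶠ k' in F, ∀ x, φ k x = 0 ∨ φ k' x = 0) : False := by
  refine lemD' H zero_le_one one_pos hc fun N => ?_
  suffices ∃ s : Finset ℕ, s.card = N ∧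
      (∀ k ∈ s, (Bd (φ k) 1 ∧ Lip (φ k) 1 ∧ c ≤ |pr (μ k) (φ k)|) ∧
        ∀ᶠ k' in F, ∀ x, φ k x = 0 ∨ φ k' x = 0) ∧
      ∀ k ∈ s, ∀ k' ∈ s, k ≠ k' → ∀ x, φ k x = 0 ∨ φ k' x = 0 by
    obtain ⟨s, h1, h2, h3⟩ := this
    exact ⟨s, φ, h1, fun k hk => (h2 k hk).1, h3⟩
  induction N with
  | zero => exact ⟨∅, by simp, by simp, by simp⟩
  | succ N ih =>
    obtain ⟨s, h1, h2, h3⟩ := ih
    have h4 := (eventually_all_finset s).2 fun k hk => (h2 k hk).2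
    obtain ⟨k, hk1, hk2, hk3⟩ :=
      (h.and (h4.and (hF (eventually_gt_atTop (s.sup id))))).exists
    have hks : k ∉ s := fun hk => absurd (Finset.le_sup (f := id) hk) (not_le.2 hk3)
    refine ⟨insert k s, by rw [card_insert_of_notMem hks, h1], ?_, ?_⟩
    · intro i hi
      rcases mem_insert.1 hi with rfl | hi
      · exact hk1
      · exact h2 i hi
    · intro i hi j hj hij x
      rcases mem_insert.1 hi with rfl | hi' <;> rcases mem_insert.1 hj with rfl | hj'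
      · exact absurd rfl hij
      · exact (hk2 j hj' x).symm
      · exact hk2 i hi' x
      · exact h3 i hi' j hj' hij x

end Vale.Agent.P124
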