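import Vale.Agent.P124.Lp

namespace Vale.Agent.P124
open Finset Filter Topology

lemma sumA {d δ : ℕ → ℝ} {L : ℝ} (h0 : ∀ i, 0 ≤ d i) (h : ∀ i, d (i + 1) ≤ 1 / 7 * d i + L * δ i)
    (n : ℕ) : ∑ i ∈ range n, d i ≤ 7 / 6 * (d 0 + L * ∑ i ∈ range n, δ i) := by
  have h1 := sum_range_succ d n
  have h2 := sum_range_succ' d n
  have h3 := sum_le_sum (s := range n) fun i _ => h i
  rw [sum_add_distrib, ← mul_sum, ← mul_sum] at h3
  linarith [h0 n]

lemma sumB {d δ : ℕ → ℝ} {L : ℝ} (h0 : ∀ i, 0 ≤ d i) (h : ∀ i, d i ≤ 1 / 7 * d (i + 1) + L * δ i)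
    (n : ℕ) : ∑ i ∈ range n, d i ≤ 1 / 6 * d n + 7 / 6 * (L * ∑ i ∈ range n, δ i) := by
  have h1 := sum_range_succ d n
  have h2 := sum_range_succ' d n
  have h3 := sum_le_sum (s := range n) fun i _ => h i
  rw [sum_add_distrib, ← mul_sum, ← mul_sum] at h3
  linarith [h0 0]

variable {C Z : Type} [NormedAddCommGroup C] [NormedAddCommGroup Z]

lemma l1_range_le (f : lp (fun _ : ℕ => Z) 1) (n : ℕ) : ∑ i ∈ range n, ‖f i‖ ≤ ‖f‖ :=
  sum_le_hasSum _ (fun _ _ => norm_nonneg _) (l1_hasSum f)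

lemma l1_le (f : lp (fun _ : ℕ => Z) 1) {K : ℝ} (h : ∀ n, ∑ i ∈ range n, ‖f i‖ ≤ K) : ‖f‖ ≤ K :=
  le_of_tendsto' (l1_hasSum f).tendsto_sum_nat h

def Ctr (F : C × Z → C × Z) (L : ℝ) : Prop :=
  F 0 = 0 ∧ ∀ x y, ‖(F x).1 - (F y).1‖ ≤ 1 / 7 * ‖x.1 - y.1‖ + L * ‖x.2 - y.2‖ ∧
    ‖(F x).2 - (F y).2‖ ≤ L * (‖x.1 - y.1‖ + ‖x.2 - y.2‖)

def seq (F : C × Z → C × Z) (x : C) (w : ℕ → Z) : ℕ → C
  | 0 => x
  | i + 1 => (F (seq F x w i, w i)).1

variable {F B : C × Z → C × Z} {L : ℝ}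

lemma Ctr.bd (hF : Ctr F L) (x : C × Z) :
    ‖(F x).1‖ ≤ 1 / 7 * ‖x.1‖ + L * ‖x.2‖ ∧ ‖(F x).2‖ ≤ L * (‖x.1‖ + ‖x.2‖) := by
  simpa [hF.1] using hF.2 x 0

lemma seq_sum (hF : Ctr F L) (hL : 0 ≤ L) (x x' : C) (w w' : lp (fun _ : ℕ => Z) 1) (n : ℕ) :
    ∑ i ∈ range n, ‖seq F x w i - seq F x' w' i‖ ≤ 7 / 6 * (‖x - x'‖ + L * ‖w - w'‖) := by
  have h := sumA (d := fun i => ‖seq F x w i - seq F x' w' i‖) (δ := fun i => ‖(w - w') i‖)
    (L := L) (fun _ => norm_nonneg _) (fun i => (hF.2 (_, w i) (_, w' i)).1) n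
  have h1 := mul_le_mul_of_nonneg_left (l1_range_le (w - w') n) hL
  simp only [seq] at h
  linarith

lemma seq_sum0 (hF : Ctr F L) (hL : 0 ≤ L) (x : C) (w : lp (fun _ : ℕ => Z) 1) (n : ℕ) :
    ∑ i ∈ range n, ‖seq F x w i‖ ≤ 7 / 6 * (‖x‖ + L * ‖w‖) := by
  have h := sumA (d := fun i => ‖seq F x w i‖) (δ := fun i => ‖w i‖)
    (L := L) (fun _ => norm_nonneg _) (fun i => (hF.bd (_, w i)).1) n
  have h1 := mul_le_mul_of_nonneg_left (l1_range_le w n) hL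
  simp only [seq] at h
  linarith

noncomputable def GG (hF : Ctr F L) (hL : 0 ≤ L) (x : C × lp (fun _ : ℕ => Z) 1) :
    lp (fun _ : ℕ => Z) 1 :=
  ⟨fun i => (F (seq F x.1 x.2 i, x.2 i)).2, l1_mem (summable_of_sum_range_le
    (c := L * (7 / 6 * (‖x.1‖ + L * ‖x.2‖) + ‖x.2‖)) (fun _ => norm_nonneg _) fun n => by
      refine (sum_le_sum fun i _ => (hF.bd _).2).trans ?_
      rw [← mul_sum, sum_add_distrib]
      exact mul_le_mul_of_nonneg_left
        (add_le_add (seq_sum0 hF hL _ _ n) (l1_range_le _ n)) hL)⟩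

lemma GG_upper (hF : Ctr F L) (hL : 0 ≤ L) (x y : C × lp (fun _ : ℕ => Z) 1) :
    ‖GG hF hL x - GG hF hL y‖ ≤ L * (7 / 6 * (1 + L) + 1) * ‖x - y‖ := by
  refine l1_le _ fun n => ?_
  refine (sum_le_sum fun i _ => (hF.2 (_, x.2 i) (_, y.2 i)).2).trans ?_
  rw [← mul_sum, sum_add_distrib, mul_assoc]
  refine mul_le_mul_of_nonneg_left ?_ hL
  have h1 := seq_sum hF hL x.1 y.1 x.2 y.2 n
  have h2 : ∑ i ∈ range n, ‖x.2 i - y.2 i‖ ≤ ‖x.2 - y.2‖ := l1_range_le (x.2 - y.2) n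
  have h3 : ‖x.1 - y.1‖ ≤ ‖x - y‖ := norm_fst_le (x - y)
  have h4 : ‖x.2 - y.2‖ ≤ ‖x - y‖ := norm_snd_le (x - y)
  have h5 := mul_le_mul_of_nonneg_left h4 hL
  dsimp only
  linarith

lemma GG_lower (hF : Ctr F L) (hB : Ctr B L) (hL : 0 ≤ L) (hBF : ∀ x, B (F x) = x)
    (x y : C × lp (fun _ : ℕ => Z) 1) :
    ‖x - y‖ ≤ (L + 1) * (7 / 6 * L + 1) * ‖GG hF hL x - GG hF hL y‖ := by
  set D := ‖GG hF hL x - GG hF hL y‖ with hD
  have hD0 : 0 ≤ D := norm_nonneg _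
  set d : ℕ → ℝ := fun i => ‖seq F x.1 x.2 i - seq F y.1 y.2 i‖ with hd
  have key : ∀ i, d i ≤ 1 / 7 * d (i + 1) + L * ‖(GG hF hL x - GG hF hL y) i‖ ∧
      ‖(x.2 - y.2) i‖ ≤ L * (d (i + 1) + ‖(GG hF hL x - GG hF hL y) i‖) := fun i => by
    have := hB.2 (F (seq F x.1 x.2 i, x.2 i)) (F (seq F y.1 y.2 i, y.2 i))
    rw [hBF, hBF] at this
    exact this
  have hs : Summable d := summable_of_sum_range_le (fun _ => norm_nonneg _) (seq_sum hF hL _ _ _ _)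
  have h1 : ∑' i, d i ≤ 1 / 6 * 0 + 7 / 6 * (L * D) :=
    le_of_tendsto_of_tendsto' hs.hasSum.tendsto_sum_nat
      ((hs.tendsto_atTop_zero.const_mul _).add
        (((l1_hasSum _).tendsto_sum_nat.const_mul _).const_mul _))
      (sumB (fun _ => norm_nonneg _) fun i => (key i).1)
  have h2 : ∀ n, ∑ i ∈ range n, d i ≤ 7 / 6 * (L * D) := fun n => by
    have := hs.sum_le_tsum (range n) fun _ _ => norm_nonneg _
    linarith
  have h3 : ‖x.1 - y.1‖ ≤ 7 / 6 * (L * D) := by simpa [hd, seq] using h2 1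
  have h4 : ‖x.2 - y.2‖ ≤ L * (7 / 6 * (L * D) + D) := l1_le _ fun n => by
    refine (sum_le_sum fun i _ => (key i).2).trans ?_
    rw [← mul_sum, sum_add_distrib]
    refine mul_le_mul_of_nonneg_left (add_le_add ?_ (l1_range_le _ n)) hL
    have := sum_range_succ' d n
    have h0 : 0 ≤ d 0 := norm_nonneg _
    linarith [h2 (n + 1)]
  have h5 : 0 ≤ L * D := mul_nonneg hL hD0
  have h6 : 0 ≤ L * (L * D) := mul_nonneg hL h5
  rw [Prod.norm_def]
  exact max_le (h3.trans (by nlinarith)) (h4.trans (by nlinarith))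

lemma GG_surj [CompleteSpace C] (hF : Ctr F L) (hB : Ctr B L) (hL : 0 ≤ L)
    (hFB : ∀ x, F (B x) = x) : Function.Surjective (GG hF hL) := by
  intro y
  let T : BoundedContinuousFunction ℕ C → BoundedContinuousFunction ℕ C := fun a =>
    BoundedContinuousFunction.ofNormedAddCommGroupDiscrete (fun i => (B (a (i + 1), y i)).1)
      (1 / 7 * ‖a‖ + L * ‖y‖) fun i => (hB.bd _).1.trans (add_le_add
        (mul_le_mul_of_nonneg_left (a.norm_coe_le_norm _) (by norm_num))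
        (mul_le_mul_of_nonneg_left (l1_apply_le y i) hL))
  have hT : ContractingWith (1 / 7) T := by
    refine ⟨by norm_num, LipschitzWith.of_dist_le_mul fun a a' => ?_⟩
    refine (BoundedContinuousFunction.dist_le (by positivity)).2 fun i => ?_
    have h1 := (hB.2 (a (i + 1), y i) (a' (i + 1), y i)).1
    have h2 := BoundedContinuousFunction.dist_coe_le_dist (f := a) (g := a') (i + 1)
    rw [dist_eq_norm] at h2 ⊢
    simp only [sub_self, norm_zero, mul_zero, add_zero] at h1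
    refine h1.trans ?_
    push_cast
    linarith
  obtain ⟨a, ha⟩ : ∃ a, T a = a := ⟨_, hT.fixedPoint_isFixedPt⟩
  have h1 : ∀ i, (B (a (i + 1), y i)).1 = a i := fun i => by
    conv_rhs => rw [← ha]
    rfl
  have h2 : ∀ n, ∑ i ∈ range n, ‖a i‖ ≤ 1 / 6 * ‖a‖ + 7 / 6 * (L * ‖y‖) := fun n => by
    have := sumB (d := fun i => ‖a i‖) (δ := fun i => ‖y i‖) (L := L) (fun _ => norm_nonneg _)
      (fun i => by rw [← h1 i]; exact (hB.bd _).1) n
    have h3 := mul_le_mul_of_nonneg_left (l1_range_le y n) hL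
    linarith [a.norm_coe_le_norm n]
  let w : lp (fun _ : ℕ => Z) 1 := ⟨fun i => (B (a (i + 1), y i)).2, l1_mem
    (summable_of_sum_range_le (c := L * (1 / 6 * ‖a‖ + 7 / 6 * (L * ‖y‖) + ‖y‖))
      (fun _ => norm_nonneg _) fun n => by
        refine (sum_le_sum fun i _ => (hB.bd _).2).trans ?_
        rw [← mul_sum, sum_add_distrib]
        refine mul_le_mul_of_nonneg_left (add_le_add ?_ (l1_range_le _ n)) hL
        have := sum_range_succ' (fun i => ‖a i‖) n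
        linarith [h2 (n + 1), norm_nonneg (a 0)])⟩
  have h3 : ∀ i, F (a i, w i) = (a (i + 1), y i) := fun i => by
    rw [← hFB (a (i + 1), y i), ← h1 i]
  have h4 : ∀ i, seq F (a 0) w i = a i := fun i => by
    induction i with
    | zero => rfl
    | succ i ih => simp only [seq, ih, h3]
  refine ⟨(a 0, w), lp.ext (funext fun i => ?_)⟩
  change (F (seq F (a 0) w i, w i)).2 = y i
  rw [h4, h3]

theorem hotel [CompleteSpace C] (hF : Ctr F L) (hB : Ctr B L) (hL : 0 ≤ L)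
    (hFB : ∀ x, F (B x) = x) (hBF : ∀ x, B (F x) = x) :
    ∃ G : C × lp (fun _ : ℕ => Z) 1 → lp (fun _ : ℕ => Z) 1, Function.Bijective G ∧
      ∃ c K : ℝ, 0 < c ∧ c ≤ K ∧
        ∀ x y, c * ‖x - y‖ ≤ ‖G x - G y‖ ∧ ‖G x - G y‖ ≤ K * ‖x - y‖ := by
  have p : 0 < (L + 1) * (7 / 6 * L + 1) := by positivity
  refine ⟨GG hF hL, ⟨fun x y h => ?_, GG_surj hF hB hL hFB⟩, 1 / ((L + 1) * (7 / 6 * L + 1)),
    max _ (L * (7 / 6 * (1 + L) + 1)), by positivity, le_max_left _ _, fun x y => ⟨?_, ?_⟩⟩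
  · have := GG_lower hF hB hL hBF x y
    rw [h, sub_self, norm_zero, mul_zero] at this
    exact sub_eq_zero.1 (norm_le_zero_iff.1 this)
  · rw [div_mul_eq_mul_div, one_mul, div_le_iff₀' p]
    exact GG_lower hF hB hL hBF x y
  · exact (GG_upper hF hL x y).trans
      (mul_le_mul_of_nonneg_right (le_max_right _ _) (norm_nonneg _))

end Vale.Agent.P124
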