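import Vale.Agent.P124.Space

namespace Vale.Agent.P124
open Finset Filter Topology

noncomputable def JJ (u : ℤ → ℝ) (t : ℝ) : ℝ :=
  (1 - Int.fract t) * u ⌊t⌋ + Int.fract t * u (⌊t⌋ + 1)

lemma JJ_near {u u' : ℤ → ℝ} {t c δ : ℝ} (h : ∀ a : ℤ, |t - a| ≤ 1 → |u a - u' a - c| ≤ δ) :
    |JJ u t - JJ u' t - c| ≤ δ := by
  have f0 := Int.fract_nonneg t
  have f1 := Int.fract_lt_one t
  have e := Int.floor_add_fract t
  have h0 := abs_le.1 (h ⌊t⌋ (abs_le.2 ⟨by linarith, by linarith⟩))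
  have h1 := abs_le.1 (h (⌊t⌋ + 1) (abs_le.2 ⟨by push_cast; linarith, by push_cast; linarith⟩))
  unfold JJ
  rw [abs_le]
  constructor <;> nlinarith [h0.1, h0.2, h1.1, h1.2]

lemma JJ_bd {u : ℤ → ℝ} {t B : ℝ} (h : ∀ a, |u a| ≤ B) : |JJ u t| ≤ B := by
  have := JJ_near (u := u) (u' := fun _ => 0) (t := t) (c := 0) (δ := B) fun a _ => by
    simpa using h a
  simpa [JJ] using this

lemma JJ_lip {u : ℤ → ℝ} {B : ℝ} (h : ∀ a, |u a| ≤ B) (t t' : ℝ) :
    |JJ u t - JJ u t'| ≤ 2 * B * |t - t'| := by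
  wlog ht : t ≤ t' generalizing t t'
  · rw [abs_sub_comm, abs_sub_comm t]; exact this _ _ (le_of_not_ge ht)
  have hB : 0 ≤ B := (abs_nonneg _).trans (h 0)
  rw [abs_sub_comm t, abs_of_nonneg (sub_nonneg.2 ht)]
  have f0 := Int.fract_nonneg t
  have f1 := Int.fract_lt_one t
  have e := Int.floor_add_fract t
  have f0' := Int.fract_nonneg t'
  have f1' := Int.fract_lt_one t'
  have e' := Int.floor_add_fract t'
  have hf := Int.floor_le_floor ht
  have a0 := abs_le.1 (h ⌊t⌋)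
  have a1 := abs_le.1 (h (⌊t⌋ + 1))
  have a2 := abs_le.1 (h (⌊t⌋ + 1 + 1))
  rcases hf.eq_or_lt with h1 | h1
  · unfold JJ
    rw [← h1] at e' ⊢
    rw [abs_le]
    have : t' - t = Int.fract t' - Int.fract t := by linarith
    constructor <;> nlinarith [a0.1, a0.2, a1.1, a1.2]
  · rcases (Int.add_one_le_of_lt h1).eq_or_lt with h2 | h2
    · unfold JJ
      rw [← h2] at e' ⊢
      push_cast at e'
      rw [abs_le]
      have : t' - t = 1 - Int.fract t + Int.fract t' := by linarith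
      rw [this]
      constructor <;> nlinarith [a0.1, a0.2, a1.1, a1.2, a2.1, a2.2]
    · have h3 : ((⌊t⌋ : ℝ) + 1) + 1 ≤ ⌊t'⌋ := by exact_mod_cast Int.add_one_le_of_lt h2
      have b1 := JJ_bd (t := t) h
      have b2 := JJ_bd (t := t') h
      have b3 := abs_sub (JJ u t) (JJ u t')
      nlinarith

noncomputable def Itp : ℕ → ((ℕ → ℤ) → ℝ) → (ℕ → ℝ) → ℝ
  | 0, u, _ => u 0
  | D + 1, u, t => JJ (fun a => Itp D (fun ν => u (Function.update ν D a)) t) (t D)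

lemma Itp_near (D : ℕ) {u u' : (ℕ → ℤ) → ℝ} {t : ℕ → ℝ} {c δ : ℝ}
    (h : ∀ ν : ℕ → ℤ, (∀ j < D, |t j - ν j| ≤ 1) → |u ν - u' ν - c| ≤ δ) :
    |Itp D u t - Itp D u' t - c| ≤ δ := by
  induction D generalizing u u' with
  | zero => exact h 0 (by simp)
  | succ D ih =>
    refine JJ_near fun a ha => ih fun ν hν => h _ fun j hj => ?_
    rcases (Nat.lt_succ_iff.1 hj).eq_or_lt with rfl | hj
    · rwa [Function.update_self]
    · rw [Function.update_of_ne hj.ne]; exact hν j hj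

lemma Itp_bd (D : ℕ) {u : (ℕ → ℤ) → ℝ} {t : ℕ → ℝ} {B : ℝ} (h : ∀ ν, |u ν| ≤ B) :
    |Itp D u t| ≤ B := by
  induction D generalizing u with
  | zero => exact h 0
  | succ D ih => exact JJ_bd fun a => ih fun ν => h _

lemma Itp_lip (D : ℕ) {u : (ℕ → ℤ) → ℝ} {B : ℝ} (h : ∀ ν, |u ν| ≤ B) (t t' : ℕ → ℝ) :
    |Itp D u t - Itp D u t'| ≤ 2 * B * ∑ j ∈ range D, |t j - t' j| := by
  induction D generalizing u with
  | zero => simp [Itp]
  | succ D ih =>
    have h1 := JJ_near (u := fun a => Itp D (fun ν => u (Function.update ν D a)) t)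
      (u' := fun a => Itp D (fun ν => u (Function.update ν D a)) t') (t := t D) (c := 0)
      fun a _ => by rw [sub_zero]; exact ih fun ν => h _
    have h2 := JJ_lip (u := fun a => Itp D (fun ν => u (Function.update ν D a)) t')
      (fun a => Itp_bd D fun ν => h _) (t D) (t' D)
    rw [sub_zero] at h1
    rw [sum_range_succ, mul_add]
    exact (abs_sub_le _ _ _).trans (add_le_add h1 h2)

noncomputable def phi (m : ℕ) (q : ℕ → ℝ) (ρ : ℝ) (u : Linf II) : ℝ :=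
  JJ (fun n => Itp (2 * m) (fun ν => u.ev (n, ν)) (tt n q)) (Real.log ρ / kap)

lemma th_01 (m : ℕ) (q : ℕ → ℝ) (ρ : ℝ) (i : II) : |chi i.1 ρ * loc (2 * m) i.1 i.2 q| ≤ 1 := by
  have := (chi_01 i.1 0 fun _ => ρ)
  have h2 := loc_01 (2 * m) i.1 i.2 q
  rw [abs_of_nonneg (mul_nonneg this.1 h2.1)]
  exact mul_le_one₀ this.2 h2.1 h2.2

noncomputable def th (m : ℕ) (q : ℕ → ℝ) (ρ : ℝ) : Linf II :=
  Linf.mk (fun i => chi i.1 ρ * loc (2 * m) i.1 i.2 q) 1 (th_01 m q ρ)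

lemma th_norm (m : ℕ) (q : ℕ → ℝ) (ρ : ℝ) : ‖th m q ρ‖ ≤ 1 :=
  Linf.norm_le _ zero_le_one (th_01 m q ρ)

lemma phi_bd (m : ℕ) (q : ℕ → ℝ) (ρ : ℝ) (u : Linf II) : |phi m q ρ u| ≤ ‖u‖ :=
  JJ_bd fun _ => Itp_bd _ fun _ => u.ev_le _

lemma phi_sub (m : ℕ) (q : ℕ → ℝ) (ρ : ℝ) (u u' : Linf II) :
    |phi m q ρ u - phi m q ρ u'| ≤ ‖u - u'‖ := by
  rw [← sub_zero (phi m q ρ u - phi m q ρ u')]
  exact JJ_near fun n _ => Itp_near _ fun ν _ => by
    rw [sub_zero]; exact (u - u').ev_le (n, ν)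

lemma phi_add (m : ℕ) (q : ℕ → ℝ) {ρ : ℝ} (hρ : 0 < ρ) (u : Linf II) (c : ℝ) :
    phi m q ρ (u + c • th m q ρ) = phi m q ρ u + c := by
  have : |phi m q ρ (u + c • th m q ρ) - phi m q ρ u - c| ≤ 0 :=
    JJ_near fun n hn => Itp_near _ fun ν hν => by
      have : loc (2 * m) n ν q = 1 := prod_eq_one fun j hj => b_one (hν j (mem_range.1 hj))
      simp [th, chi_one hρ hn, this]
  have := abs_nonpos_iff.1 this
  linarith

lemma Lb_kap : Lb / kap ≤ 1 / 20 := by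
  rw [div_le_div_iff₀ kap_pos (by norm_num)]; unfold kap; linarith

lemma phi_lip (m : ℕ) {q q' : ℕ → ℝ} {a ρ ρ' t : ℝ} (ha : 0 < a) (h1 : a ≤ ρ) (h2 : a ≤ ρ')
    (hq : Near q q' t) (hρ : |ρ - ρ'| ≤ t) (u : Linf II) :
    a * |phi m q ρ u - phi m q' ρ' u| ≤ ‖u‖ * t / 10 := by
  have ht := hq.nonneg
  have hk := kap_pos
  have hu := norm_nonneg u
  have g1 := JJ_lip (u := fun n => Itp (2 * m) (fun ν => u.ev (n, ν)) (tt n q)) (B := ‖u‖)
    (fun _ => Itp_bd _ fun _ => u.ev_le _) (Real.log ρ / kap) (Real.log ρ' / kap)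
  have g2 := JJ_near (u := fun n => Itp (2 * m) (fun ν => u.ev (n, ν)) (tt n q))
    (u' := fun n => Itp (2 * m) (fun ν => u.ev (n, ν)) (tt n q')) (t := Real.log ρ' / kap)
    (c := 0) (δ := 2 * ‖u‖ * (t / (kap * a))) fun n hn => by
      rw [sub_zero]
      refine (Itp_lip _ (fun _ => u.ev_le _) _ _).trans
        (mul_le_mul_of_nonneg_left ?_ (by positivity))
      refine (sum_le_sum fun j _ => tt_lip n hq j).trans ?_
      rw [← sum_mul, ← sum_div]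
      have p := mul_pos KK_pos (Ex_pos n)
      have b1 : a ≤ Ex 2 * Ex n := by
        rw [← Ex_add]
        refine h2.trans ?_
        rw [← Ex_log (ha.trans_le h2)]
        exact Ex_le (by linarith [(abs_le.1 hn).2])
      calc _ ≤ 1 / (KK * Ex n) * t :=
            mul_le_mul_of_nonneg_right (div_le_div_of_nonneg_right (eps_sum _) p.le) ht
        _ ≤ 1 / (kap * a) * t := by
            refine mul_le_mul_of_nonneg_right (one_div_le_one_div_of_le (by positivity) ?_) ht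
            unfold KK; rw [mul_assoc]; exact mul_le_mul_of_nonneg_left b1 hk.le
        _ = _ := by ring
  rw [sub_zero] at g2
  rw [← sub_div, abs_div, abs_of_pos hk] at g1
  have g3 := (log_lip ha h1 h2).trans hρ
  have g4 := (abs_sub_le _ _ _).trans (add_le_add g1 g2)
  have g5 : 1 / kap ≤ 1 / 40 := one_div_le_one_div_of_le (by norm_num) kap_ge
  calc _ ≤ a * (2 * ‖u‖ * (|Real.log ρ - Real.log ρ'| / kap) + 2 * ‖u‖ * (t / (kap * a))) :=
        mul_le_mul_of_nonneg_left g4 ha.le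
    _ = 2 * ‖u‖ * (1 / kap) * (a * |Real.log ρ - Real.log ρ'| + t) := by field_simp
    _ ≤ 2 * ‖u‖ * (1 / 40) * (t + t) := by gcongr
    _ = _ := by ring

lemma th_lip (m : ℕ) {q q' : ℕ → ℝ} {a ρ ρ' t : ℝ} (ha : 0 < a) (h1 : a ≤ ρ) (h2 : a ≤ ρ')
    (hq : Near q q' t) (hρ : |ρ - ρ'| ≤ t) : a * ‖th m q ρ - th m q' ρ'‖ ≤ t / 10 := by
  have ht := hq.nonneg
  rw [← le_div_iff₀' ha]
  refine Linf.norm_le _ (by positivity) fun i => ?_
  rw [le_div_iff₀' ha]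
  simp only [th, Linf.ev_sub, Linf.ev_mk]
  have g1 := (chi_lip i.1 ha (le_max_of_le_left h1) (le_max_of_le_left h2)).trans
    (mul_le_mul Lb_kap hρ (abs_nonneg _) (by norm_num))
  have g2 : a * (chi i.1 ρ' * |loc (2 * m) i.1 i.2 q - loc (2 * m) i.1 i.2 q'|) ≤ 1 / 20 * t := by
    by_cases h : chi i.1 ρ' = 0
    · rw [h, zero_mul, mul_zero]; positivity
    · have b1 := h2.trans (chi_ne h).2.le
      have b2 := loc_lip (2 * m) i.1 i.2 q q' t hq
      have b3 := (chi_01 i.1 0 fun _ => ρ')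
      have p1 := Ex_pos i.1
      have p2 := Ex_pos 2
      have p3 := kap_pos
      calc _ ≤ Ex (i.1 + 2) * (1 * (Lb / (KK * Ex i.1) * t)) :=
            mul_le_mul b1 (mul_le_mul b3.2 b2 (abs_nonneg _) zero_le_one)
              (mul_nonneg b3.1 (abs_nonneg _)) (Ex_pos _).le
        _ = Lb / kap * t := by rw [Ex_add]; unfold KK; field_simp
        _ ≤ _ := mul_le_mul_of_nonneg_right Lb_kap ht
  have e : chi i.1 ρ * loc (2 * m) i.1 i.2 q - chi i.1 ρ' * loc (2 * m) i.1 i.2 q' =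
      (chi i.1 ρ - chi i.1 ρ') * loc (2 * m) i.1 i.2 q +
        chi i.1 ρ' * (loc (2 * m) i.1 i.2 q - loc (2 * m) i.1 i.2 q') := by ring
  have g3 := abs_add_le ((chi i.1 ρ - chi i.1 ρ') * loc (2 * m) i.1 i.2 q)
    (chi i.1 ρ' * (loc (2 * m) i.1 i.2 q - loc (2 * m) i.1 i.2 q'))
  have b4 := loc_01 (2 * m) i.1 i.2 q
  rw [abs_mul, abs_mul, abs_of_nonneg b4.1, abs_of_nonneg (chi_01 i.1 0 fun _ => ρ').1] at g3
  have g4 := mul_le_of_le_one_right (abs_nonneg (chi i.1 ρ - chi i.1 ρ')) b4.2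
  rw [e]
  nlinarith

lemma piL_Gam_eq (m : ℕ) (p : C0) (h : |p (2 * m)| ≤ p (2 * m + 1)) :
    piL m (Gam p) = p (2 * m) • th m p (p (2 * m + 1)) := by
  refine Linf.ext fun i => ?_
  rw [piL_Gam]
  simp only [th, Linf.ev_smul, Linf.ev_mk, gg, cuts, range_zero, prod_empty, mul_one]
  by_cases h' : chi i.1 (p (2 * m + 1)) = 0
  · simp [h']
  · rw [b_one, one_mul]
    rw [abs_div, abs_of_pos (Ex_pos _), div_le_one (Ex_pos _)]
    exact h.trans (chi_ne h').2.le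

end Vale.Agent.P124
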