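import Vale.Agent.P124.Free

namespace Vale.Agent.P124
open Finset Filter Topology TopologicalSpace

section l1
variable {G : ℕ → Type} [∀ n, NormedAddCommGroup (G n)]

lemma l1_hasSum (f : lp G 1) : HasSum (fun i => ‖f i‖) ‖f‖ := by
  simpa using lp.hasSum_norm (p := 1) (by simp) f

lemma l1_mem {f : ∀ n, G n} (h : Summable fun i => ‖f i‖) : Memℓp f 1 :=
  memℓp_gen (by simpa using h)

lemma l1_apply_le (f : lp G 1) (i : ℕ) : ‖f i‖ ≤ ‖f‖ := lp.norm_apply_le_norm one_ne_zero f i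

lemma hump (v : ℕ → lp G 1) (h0 : ∀ n, Tendsto (fun k => ‖v k n‖) atTop (𝓝 0)) {C : ℝ}
    (hC : ∀ s : Finset ℕ, ‖∑ k ∈ s, v k‖ ≤ C) : Tendsto v atTop (𝓝 0) := by
  rw [NormedAddGroup.tendsto_nhds_zero]
  intro c hc
  by_contra hcon
  have h1 : ∃ᶠ k in atTop, c ≤ ‖v k‖ := (not_eventually.1 hcon).mono fun k hk => not_lt.1 hk
  have key : ∀ (u : lp G 1) (k0 : ℕ), ∃ k, k0 ≤ k ∧ ‖u‖ + c / 2 ≤ ‖v k + u‖ := by
    intro u k0
    have h2 : Tendsto (fun k => ∑' n, min ‖u n‖ ‖v k n‖) atTop (𝓝 (∑' _ : ℕ, (0 : ℝ))) := by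
      refine tendsto_tsum_of_dominated_convergence (l1_hasSum u).summable (fun n => ?_)
        (Eventually.of_forall fun k n => ?_)
      · have := (tendsto_const_nhds (x := ‖u n‖)).min (h0 n)
        rwa [min_eq_right (norm_nonneg _)] at this
      · rw [Real.norm_eq_abs, abs_of_nonneg (le_min (norm_nonneg _) (norm_nonneg _))]
        exact min_le_left _ _
    rw [tsum_zero] at h2
    obtain ⟨k, g1, g2, g3⟩ := (h1.and_eventually ((h2.eventually (gt_mem_nhds
      (by positivity : 0 < c / 4))).and (eventually_ge_atTop k0))).exists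
    refine ⟨k, g3, ?_⟩
    have s1 : Summable fun n => min ‖u n‖ ‖v k n‖ :=
      (l1_hasSum u).summable.of_nonneg_of_le (fun _ => le_min (norm_nonneg _) (norm_nonneg _))
        fun _ => min_le_left _ _
    have h3 := hasSum_le (fun n => ?_) ((l1_hasSum u).add (l1_hasSum (v k)))
      ((l1_hasSum (v k + u)).add (s1.hasSum.mul_left 2))
    · linarith
    · simp only [lp.coeFn_add, Pi.add_apply]
      have a1 := norm_sub_le (v k n + u n) (u n)
      have a2 := norm_sub_le (v k n + u n) (v k n)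
      rw [add_sub_cancel_right] at a1
      rw [add_sub_cancel_left] at a2
      rcases le_total ‖u n‖ ‖v k n‖ with h | h
      · rw [min_eq_left h]; linarith
      · rw [min_eq_right h]; linarith
  have h4 : ∀ N : ℕ, ∃ s : Finset ℕ, N * (c / 2) ≤ ‖∑ k ∈ s, v k‖ := by
    intro N
    induction N with
    | zero => exact ⟨∅, by simp⟩
    | succ N ih =>
      obtain ⟨s, hs⟩ := ih
      obtain ⟨k, g1, g2⟩ := key (∑ k ∈ s, v k) (s.sup id + 1)
      have hks : k ∉ s := fun hk => by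
        have := Finset.le_sup (f := id) hk
        simp only [id] at this
        omega
      refine ⟨insert k s, ?_⟩
      rw [sum_insert hks]; push_cast; linarith
  obtain ⟨N, hN⟩ := exists_nat_gt (C / (c / 2))
  obtain ⟨s, hs⟩ := h4 N
  rw [div_lt_iff₀ (half_pos hc)] at hN
  linarith [hC s]

variable [∀ n, NormedSpace ℝ (G n)]

lemma l1_sep [∀ n, SeparableSpace (G n)] : SeparableSpace (lp G 1) := by
  rw [← isSeparable_univ_iff]
  have h : IsSeparable (⋃ i : ℕ, Set.range (lp.single (E := G) 1 i)) :=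
    isSeparable_iUnion.2 fun i => isSeparable_range (lp.isometry_single i).continuous
  refine (h.span (R := ℝ)).closure.mono fun f _ => ?_
  refine mem_closure_of_tendsto (lp.hasSum_single (by simp) f) (Eventually.of_forall fun s => ?_)
  exact Submodule.sum_mem _ fun i _ => Submodule.subset_span (Set.mem_iUnion.2 ⟨i, _, rfl⟩)

lemma lp_sum_apply {ι : Type} {E : ι → Type} [∀ n, NormedAddCommGroup (E n)]
    [∀ n, NormedSpace ℝ (E n)] {p : ENNReal} {κ : Type} (s : Finset κ) (t : κ → ℝ)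
    (v : κ → lp E p) (n : ι) : (∑ k ∈ s, t k • v k) n = ∑ k ∈ s, t k • v k n := by
  rw [lp.coeFn_sum, Finset.sum_apply]; rfl

end l1

def PP (Y : Type) [NormedAddCommGroup Y] [NormedSpace ℝ Y] : Prop :=
  ∀ (v : ℕ → Y) (C : ℝ), (∀ (s : Finset ℕ) (t : ℕ → ℝ), (∀ k, |t k| ≤ 1) →
    ‖∑ k ∈ s, t k • v k‖ ≤ C) → Tendsto v atTop (𝓝 0)

lemma PP.l1 {Z : Type} [NormedAddCommGroup Z] [NormedSpace ℝ Z] (h : PP Z) :
    PP (lp (fun _ : ℕ => Z) 1) := fun v C hC => by
  refine hump v (fun n => ?_) (C := C) fun s => by simpa using hC s (fun _ => 1) (by simp)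
  refine tendsto_zero_iff_norm_tendsto_zero.1 (h (fun k => v k n) C fun s t ht => ?_)
  rw [← lp_sum_apply]
  exact (l1_apply_le _ n).trans (hC s t ht)

def Linf (ι : Type) : Type := lp (fun _ : ι => ℝ) ⊤

noncomputable instance (ι : Type) : NormedAddCommGroup (Linf ι) :=
  inferInstanceAs (NormedAddCommGroup (lp (fun _ : ι => ℝ) ⊤))

noncomputable instance (ι : Type) : NormedSpace ℝ (Linf ι) :=
  inferInstanceAs (NormedSpace ℝ (lp (fun _ : ι => ℝ) ⊤))

instance (ι : Type) : CompleteSpace (Linf ι) :=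
  inferInstanceAs (CompleteSpace (lp (fun _ : ι => ℝ) ⊤))

namespace Linf
variable {ι : Type}

def ev (f : Linf ι) (i : ι) : ℝ := Subtype.val (p := fun f => f ∈ lp (fun _ : ι => ℝ) ⊤) f i

def mk (f : ι → ℝ) (C : ℝ) (h : ∀ i, |f i| ≤ C) : Linf ι :=
  Subtype.mk (p := fun f => f ∈ lp (fun _ : ι => ℝ) ⊤) f
    (memℓp_infty ⟨C, by rintro _ ⟨i, rfl⟩; exact h i⟩)

@[simp] lemma ev_mk (f : ι → ℝ) (C : ℝ) (h : ∀ i, |f i| ≤ C) (i : ι) : (mk f C h).ev i = f i := rfl
lemma ext {f g : Linf ι} (h : ∀ i, f.ev i = g.ev i) : f = g := lp.ext (funext h)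
@[simp] lemma ev_add (f g : Linf ι) (i : ι) : (f + g).ev i = f.ev i + g.ev i := rfl
@[simp] lemma ev_sub (f g : Linf ι) (i : ι) : (f - g).ev i = f.ev i - g.ev i := rfl
@[simp] lemma ev_smul (c : ℝ) (f : Linf ι) (i : ι) : (c • f).ev i = c * f.ev i := rfl
@[simp] lemma ev_zero (i : ι) : (0 : Linf ι).ev i = 0 := rfl

lemma ev_sum {κ : Type} (s : Finset κ) (f : κ → Linf ι) (i : ι) :
    (∑ k ∈ s, f k).ev i = ∑ k ∈ s, (f k).ev i := by
  classical
  induction s using Finset.induction_on with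
  | empty => simp
  | insert a s ha ih => rw [sum_insert ha, sum_insert ha, ev_add, ih]

lemma norm_le (f : Linf ι) {C : ℝ} (hC : 0 ≤ C) (h : ∀ i, |f.ev i| ≤ C) : ‖f‖ ≤ C :=
  lp.norm_le_of_forall_le hC h

lemma ev_le (f : Linf ι) (i : ι) : |f.ev i| ≤ ‖f‖ :=
  lp.norm_apply_le_norm (by simp) f i

end Linf

lemma C0.abs_le (p : C0) (j : ℕ) : |p j| ≤ ‖p‖ := p.toBCF.norm_coe_le_norm j

lemma C0.norm_le (p : C0) {t : ℝ} (ht : 0 ≤ t) (h : ∀ j, |p j| ≤ t) : ‖p‖ ≤ t :=
  (BoundedContinuousFunction.norm_le (f := p.toBCF) ht).2 h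

lemma C0.near (p q : C0) : Near p q ‖p - q‖ := fun j => (p - q).abs_le j

def C0.of (f : ℕ → ℝ) (h : Tendsto f atTop (𝓝 0)) : C0 :=
  ⟨⟨f, continuous_of_discreteTopology⟩, by rwa [cocompact_eq_cofinite, Nat.cofinite_eq_atTop]⟩

@[simp] lemma C0.of_apply (f : ℕ → ℝ) (h : Tendsto f atTop (𝓝 0)) (j : ℕ) : C0.of f h j = f j :=
  rfl

noncomputable def ee (k : ℕ) : C0 := C0.of (fun j => if k = j then 1 else 0)
  (tendsto_const_nhds.congr' ((eventually_gt_atTop k).mono fun j hj => by simp [hj.ne]))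

lemma C0.sum_apply (s : Finset ℕ) (t : ℕ → ℝ) (j : ℕ) :
    (∑ k ∈ s, t k • ee k) j = if j ∈ s then t j else 0 := by
  induction s using Finset.induction_on with
  | empty => simp
  | insert a s ha ih =>
    rw [sum_insert ha, ZeroAtInftyContinuousMap.add_apply, ih,
      ZeroAtInftyContinuousMap.smul_apply]
    by_cases h : a = j
    · subst h; simp [ee, ha]
    · simp [ee, h, Ne.symm h]

instance C0.sep : SeparableSpace C0 := by
  rw [← isSeparable_univ_iff]
  refine ((Set.countable_range ee).isSeparable.span (R := ℝ)).closure.mono fun f _ => ?_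
  rw [Metric.mem_closure_iff]
  intro ε hε
  have := f.tendsto.abs
  rw [abs_zero] at this
  obtain ⟨N, hN⟩ := eventually_atTop.1 (this.eventually (ge_mem_nhds (half_pos hε)))
  refine ⟨∑ k ∈ range N, f k • ee k, Submodule.sum_mem _ fun i _ =>
    Submodule.smul_mem _ _ (Submodule.subset_span ⟨i, rfl⟩), ?_⟩
  rw [dist_eq_norm]
  refine (C0.norm_le _ (half_pos hε).le fun j => ?_).trans_lt (half_lt_self hε)
  rw [ZeroAtInftyContinuousMap.sub_apply, C0.sum_apply]
  split_ifs with hj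
  · simpa using (half_pos hε).le
  · simpa using hN j (by simpa using hj)

lemma not_iso {Y : Type} [NormedAddCommGroup Y] [NormedSpace ℝ Y] [CompleteSpace Y] (h : PP Y) :
    ¬ ∃ T : (C0 × Y) →L[ℝ] Y, Function.Bijective T := by
  rintro ⟨T, hT⟩
  have h1 := h (fun k => T (ee k, 0)) ‖T‖ fun s t ht => by
    have e : ∑ k ∈ s, t k • T (ee k, 0) = T (∑ k ∈ s, t k • ee k, 0) := by
      simp only [← map_smul, ← map_sum]
      congr 1
      ext1 <;> simp [Prod.fst_sum, Prod.snd_sum]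
    rw [e]
    refine (T.le_opNorm _).trans (mul_le_of_le_one_right (norm_nonneg _) ?_)
    rw [Prod.norm_def, norm_zero]
    refine max_le (C0.norm_le _ zero_le_one fun j => ?_) zero_le_one
    rw [C0.sum_apply]
    split_ifs
    · exact ht j
    · simp
  let S := ContinuousLinearEquiv.ofBijective T (LinearMap.ker_eq_bot.2 hT.1)
    (LinearMap.range_eq_top.2 hT.2)
  have h2 := ((continuous_fst.comp S.symm.continuous).tendsto 0).comp h1
  have h3 : ∀ x, S.symm (T x) = x := fun x => S.symm_apply_apply x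
  simp only [Function.comp_def, h3, map_zero, Prod.fst_zero] at h2
  obtain ⟨k, hk⟩ := (NormedAddGroup.tendsto_nhds_zero.1 h2 1 one_pos).exists
  have := (ee k).abs_le k
  simp only [ee, C0.of_apply, if_true, abs_one] at this
  exact absurd hk (not_lt.2 this)

end Vale.Agent.P124
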