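import Vale.Agent.P124.Tail

namespace Vale.Agent.P124
open Finset Filter Topology

variable {μ : ℕ → C0 →₀ ℝ} {C : ℝ}

lemma dich {α : Type*} (U : Ultrafilter ℕ) (a : ℕ → α) :
    (∃ v, ∀ᶠ k in U, a k = v) ∨ ∀ S : Set α, S.Finite → ∀ᶠ k in U, a k ∉ S := by
  by_cases h : ∃ v, ∀ᶠ k in U, a k = v
  · exact Or.inl h
  · refine Or.inr fun S hS => Ultrafilter.eventually_not.2 fun h' => h ?_
    obtain ⟨v, -, hv⟩ := (Ultrafilter.eventually_exists_mem_iff (f := U)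
      (P := fun v k => a k = v) hS).1 (h'.mono fun k hk => ⟨a k, hk, rfl⟩)
    exact ⟨v, hv⟩

lemma dichN (U : Ultrafilter ℕ) (a : ℕ → ℕ) :
    (∃ v, ∀ᶠ k in U, a k = v) ∨ ∀ B, ∀ᶠ k in U, B ≤ a k :=
  (dich U a).imp id fun h B => (h _ (Set.finite_Iio B)).mono fun _ hk => not_lt.1 hk

lemma dichZ (U : Ultrafilter ℕ) (a : ℕ → ℤ) :
    (∃ v, ∀ᶠ k in U, a k = v) ∨ ∀ v B : ℤ, ∀ᶠ k in U, a k ≤ v - B ∨ v + B ≤ a k :=
  (dich U a).imp id fun h v B => (h _ (Set.finite_Ioo (v - B) (v + B))).mono fun k hk => by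
    simp only [Set.mem_Ioo, not_and_or, not_lt] at hk; exact hk

lemma dichR (U : Ultrafilter ℕ) (z : ℕ → ℝ) :
    (∃ ζ, Tendsto z U (𝓝 ζ)) ∨ ∀ B, ∀ᶠ k in U, B < |z k| := by
  by_cases h : ∀ B, ∀ᶠ k in U, B < |z k|
  · exact Or.inr h
  · left
    obtain ⟨B, hB⟩ := not_forall.1 h
    have h1 : ∀ᶠ k in U, z k ∈ Set.Icc (-B) B :=
      (Ultrafilter.eventually_not.2 hB).mono fun k hk => abs_le.1 (not_lt.1 hk)
    obtain ⟨ζ, -, hζ⟩ := (isCompact_Icc (a := -B) (b := B)).ultrafilter_le_nhds' (U.map z) h1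
    exact ⟨ζ, hζ⟩

lemma Dep.mono {f : (ℕ → ℝ) → ℝ} {M M' : ℕ} (h : Dep f M) (hM : M ≤ M') : Dep f M' :=
  fun x y h' => h x y fun j hj => h' j (hj.trans_le hM)

theorem shrink (H : HH μ C) (U : Ultrafilter ℕ) (hU : (U : Filter ℕ) ≤ atTop) {c : ℝ}
    (hc : 0 < c) (f : ℕ → (ℕ → ℝ) → ℝ) (d : ℕ → ℕ) (z : ℕ → ℕ → ℝ) (r R : ℕ → ℝ) (a : ℝ)
    (hr : Tendsto r U (𝓝 0))
    (h : ∀ᶠ k in U, (Bd (f k) 1 ∧ Lip (f k) 1 ∧ c ≤ |pr (μ k) (f k)|) ∧ Sm (f k) ∧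
      (∀ x, |f k x| ≤ a * r k) ∧ ∀ x, f k x ≠ 0 → ∀ j < d k, |x j - z k j| ≤ R j * r k)
    {A : Set ℕ} (hA : A.Nonempty)
    (hA1 : ∀ M0 ∈ A, ∀ᶠ k in U, M0 ≤ d k ∧ ∃ M ∈ A, M0 ≤ M ∧ Dep (f k) M) : False := by
  have hs : ∀ a ρ : ℝ, 0 < ρ → ∀ᶠ k in U, a * r k ≤ ρ := fun a ρ hρ => by
    have := hr.const_mul a
    rw [mul_zero] at this
    exact this.eventually (ge_mem_nhds hρ)
  by_cases hz : ∃ M0 ∈ A, ∃ j < M0, ∀ B, ∀ᶠ k in U, B < |z k j|
  · obtain ⟨M0, hM0, j, hj, hz⟩ := hz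
    have h1 : ∀ᶠ k in U, ∀ x, f k x ≠ 0 → |x j - z k j| ≤ 1 := by
      filter_upwards [h, hA1 M0 hM0, hs (R j) 1 one_pos] with k h1 h2 h3 x hx
      exact (h1.2.2.2 x hx j (hj.trans_le h2.1)).trans h3
    refine clique H hU hc (φ := f) ?_
    filter_upwards [h, h1] with k h2 h3
    refine ⟨h2.1, ?_⟩
    filter_upwards [h1, hz (|z k j| + 2)] with k' h4 h5 x
    by_contra hcon
    rw [not_or] at hcon
    have b1 := h3 x hcon.1
    have b2 := h4 x hcon.2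
    have b3 := abs_sub_abs_le_abs_sub (z k' j) (z k j)
    have b4 := abs_sub_le (z k' j) (x j) (z k j)
    rw [abs_sub_comm (z k' j) (x j)] at b4
    linarith
  · have h1 : ∀ j, ∃ ζ, ∀ M0 ∈ A, j < M0 → Tendsto (fun k => z k j) U (𝓝 ζ) := fun j => by
      rcases dichR U fun k => z k j with ⟨ζ, hζ⟩ | h'
      · exact ⟨ζ, fun _ _ _ => hζ⟩
      · exact ⟨0, fun M0 hM0 hj => absurd ⟨M0, hM0, j, hj, h'⟩ hz⟩
    choose ζ hζ using h1
    refine nested H ζ hA hc fun M0 hM0 ρ hρ k0 => ?_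
    have h2 : ∀ᶠ k in U, ∀ j ∈ range M0, R j * r k ≤ ρ / 2 ∧ |z k j - ζ j| ≤ ρ / 2 := by
      refine (eventually_all_finset _).2 fun j hj => (hs _ _ (half_pos hρ)).and ?_
      have := ((hζ j M0 hM0 (mem_range.1 hj)).sub_const (ζ j)).abs
      rw [sub_self, abs_zero] at this
      exact this.eventually (ge_mem_nhds (half_pos hρ))
    obtain ⟨k, g1, g2, g3, g4, g5⟩ := (h.and ((hA1 M0 hM0).and (h2.and ((hs a ρ hρ).and
      (hU (eventually_ge_atTop k0)))))).exists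
    obtain ⟨M, hM, hMM, hD⟩ := g2.2
    refine ⟨k, g5, f k, M, hM, hMM, g1.1.2.2, g1.1.1, g1.1.2.1, g1.2.1, hD,
      fun x => (g1.2.2.1 x).trans g4, fun x hx j hj => ?_⟩
    have b1 := g1.2.2.2 x hx j (hj.trans_le g2.1)
    have b2 := g3 j (mem_range.2 hj)
    have b3 := abs_sub_le (x j) (z k j) (ζ j)
    linarith [b2.1, b2.2]

lemma sml_bd {n M j : ℕ} (hj : j < M) (hM : M ≤ n) (ν : ℕ → ℤ) : Bd (sml n M j ν) 1 :=
  Bd.of_mem (Or.inr ⟨n, M, j, ν, hj, hM, rfl⟩)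

lemma anc_bd (l m : ℕ) (n : ℤ) (ν : ℕ → ℤ) (J : ℕ → Finset ℕ) : Bd (anc l m n ν J) 1 :=
  Bd.of_mem (Or.inl ⟨l, m, n, ν, J, rfl⟩)

lemma const_all (U : Ultrafilter ℕ) (ν : ℕ → ℕ → ℤ) (D : ℕ) :
    (∃ ν0 : ℕ → ℤ, ∀ᶠ k in U, ∀ j < D, ν k j = ν0 j) ∨
      ∃ j < D, ∀ v B : ℤ, ∀ᶠ k in U, ν k j ≤ v - B ∨ v + B ≤ ν k j := by
  by_cases h : ∃ j < D, ∀ v B : ℤ, ∀ᶠ k in U, ν k j ≤ v - B ∨ v + B ≤ ν k j
  · exact Or.inr h
  · have h1 : ∀ j, ∃ v, j < D → ∀ᶠ k in U, ν k j = v := fun j => by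
      rcases dichZ U fun k => ν k j with ⟨v, hv⟩ | h'
      · exact ⟨v, fun _ => hv⟩
      · exact ⟨0, fun hj => absurd ⟨j, hj, h'⟩ h⟩
    choose ν0 hν0 using h1
    refine Or.inl ⟨ν0, ?_⟩
    have := (eventually_all_finset (range D) (l := (U : Filter ℕ))
      (p := fun j k => ν k j = ν0 j)).2 fun j hj => hν0 j (mem_range.1 hj)
    exact this.mono fun k hk j hj => hk j (mem_range.2 hj)

theorem caseS (H : HH μ C) (U : Ultrafilter ℕ) (hU : (U : Filter ℕ) ≤ atTop) {c : ℝ}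
    (hc : 0 < c) (n M j : ℕ → ℕ) (ν : ℕ → ℕ → ℤ)
    (h : ∀ᶠ k in U, j k < M k ∧ M k ≤ n k ∧ c ≤ |pr (μ k) (sml (n k) (M k) (j k) (ν k))|) :
    False := by
  have hgood : ∀ᶠ k in U, Bd (sml (n k) (M k) (j k) (ν k)) 1 ∧
      Lip (sml (n k) (M k) (j k) (ν k)) 1 ∧ c ≤ |pr (μ k) (sml (n k) (M k) (j k) (ν k))| :=
    h.mono fun k hk => ⟨sml_bd hk.1 hk.2.1 _, sml_lip hk.1 _, hk.2.2⟩
  rcases dichN U n with ⟨n0, hn⟩ | hn
  · obtain ⟨M0, hM⟩ : ∃ v, ∀ᶠ k in U, M k = v := (dichN U M).resolve_right fun h' => by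
      obtain ⟨k, g1, g2, g3⟩ := (h.and (hn.and (h' (n0 + 1)))).exists
      omega
    obtain ⟨j0, hj⟩ : ∃ v, ∀ᶠ k in U, j k = v := (dichN U j).resolve_right fun h' => by
      obtain ⟨k, g1, g2, g3⟩ := (h.and (hn.and (h' (n0 + 1)))).exists
      omega
    obtain ⟨hjM, hMn⟩ : j0 < M0 ∧ M0 ≤ n0 := by
      obtain ⟨k, g1, g2, g3, g4⟩ := (h.and (hn.and (hM.and hj))).exists
      omega
    rcases const_all U ν M0 with ⟨ν0, hν⟩ | ⟨i, hi, hν⟩
    · have h1 := (H.tendsto (sml_lip (n := n0) hjM ν0) (sml_bd hjM hMn ν0)).eventually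
        (gt_mem_nhds hc)
      obtain ⟨k, g1, g2, g3, g4, g5, g6⟩ :=
        (h.and (hn.and (hM.and (hj.and (hν.and (hU h1)))))).exists
      rw [g2, g3, g4, sml_eq hjM g5] at g1
      exact absurd g1.2.2 (not_le.2 g6)
    · refine clique H hU hc (φ := fun k => sml (n k) (M k) (j k) (ν k)) ?_
      filter_upwards [hgood, hn, hM] with k g1 g2 g3
      refine ⟨g1, ?_⟩
      filter_upwards [hn, hM, hν (ν k i) 8] with k' g4 g5 g6 x
      by_contra hcon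
      rw [not_or, g2, g3, g4, g5] at hcon
      have b1 := abs_lt.1 (sml_box hcon.1 hi)
      have b2 := abs_lt.1 (sml_box hcon.2 hi)
      have p : (0 : ℝ) < 1 / 2 ^ n0 := by positivity
      have e : ∀ ν : ℕ → ℤ, sz n0 ν i = ν i / 4 * (1 / 2 ^ n0) := fun ν => by
        unfold sz; field_simp
      rw [e] at b1 b2
      rcases g6 with g6 | g6
      · have : (ν k' i : ℝ) ≤ ν k i - 8 := by exact_mod_cast g6
        nlinarith [b1.1, b2.2]
      · have : (ν k i : ℝ) + 8 ≤ ν k' i := by exact_mod_cast g6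
        nlinarith [b1.2, b2.1]
  · have hr : Tendsto (fun k => (1 : ℝ) / 2 ^ n k) U (𝓝 0) := by
      have h1 : Tendsto n U atTop := tendsto_atTop.2 hn
      have h2 := (tendsto_pow_atTop_nhds_zero_of_lt_one (r := (1 / 2 : ℝ)) (by norm_num)
        (by norm_num)).comp h1
      simpa [Function.comp_def] using h2
    have key : ∀ {A : Set ℕ}, A.Nonempty → (∀ M0 ∈ A, ∀ᶠ k in U, M0 ≤ M k ∧ M k ∈ A) → False :=
      fun {A} hA hA1 => by
        refine shrink H U hU hc (fun k => sml (n k) (M k) (j k) (ν k)) M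
          (fun k => sz (n k) (ν k)) _ (fun _ => 1) 1 hr ?_ hA fun M0 hM0 => ?_
        · filter_upwards [hgood, h] with k g1 g2
          refine ⟨g1, sml_sm _ _ _ _, fun x => ?_, fun x hx i hi => ?_⟩
          · have b1 := sml_amp (n := n k) g2.1 (ν k) x
            have b2 := le_mul_of_one_le_right
              (abs_nonneg (sml (n k) (M k) (j k) (ν k) x)) wS_ge
            linarith
          · rw [one_mul]; exact (sml_box hx hi).le
        · filter_upwards [hA1 M0 hM0, h] with k g1 g2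
          exact ⟨g1.1, M k, g1.2, g1.1, sml_dep g2.1 _⟩
    rcases dichN U M with ⟨M0, hM⟩ | hM
    · exact key (Set.singleton_nonempty M0) fun M1 hM1 =>
        hM.mono fun k hk => ⟨(hM1.trans hk.symm).le, hk⟩
    · exact key Set.univ_nonempty fun M1 _ => (hM M1).mono fun k hk => ⟨hk, trivial⟩

lemma anc_cut (l m : ℕ) (n : ℤ) (ν : ℕ → ℤ) (J : ℕ → Finset ℕ) (J' : Finset ℕ) :
    Bd (fun x => anc l m n ν J x * cut J' (thr l n) 0 x) (ww (l + 1) / ww l) ∧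
    Lip (fun x => anc l m n ν J x * cut J' (thr l n) 0 x) (ww (l + 1) / ww l) := by
  simp only [anc_succ]
  have p := div_pos (ww_pos (l + 1)) (ww_pos l)
  constructor
  · simpa [abs_of_pos p] using (anc_bd (l + 1) m n ν (Function.update J l J')).smul
      (ww (l + 1) / ww l)
  · simpa [abs_of_pos p] using (anc_lip1 (l + 1) m n ν (Function.update J l J')).smul
      (ww (l + 1) / ww l)

theorem caseA0 (H : HH μ C) (U : Ultrafilter ℕ) (hU : (U : Filter ℕ) ≤ atTop) {c : ℝ}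
    (hc : 0 < c) (l m : ℕ) (n : ℤ) (ν : ℕ → ℤ) (J : ℕ → ℕ → Finset ℕ)
    (h : ∀ᶠ k in U, c ≤ |pr (μ k) (anc l m n ν (J k))|) : False := by
  have p := div_pos (ww_pos (l + 1)) (ww_pos l)
  refine tail H (T := {thr l n}) (Set.singleton_nonempty _) (fun τ hτ => hτ ▸ thr_pos l n)
    (add_pos p p).le (add_pos p p) (half_pos hc) fun N0 k0 τ0 hτ0 => ?_
  obtain rfl : τ0 = thr l n := hτ0
  have h1 : ∀ᶠ k in U, ∀ i ∈ range l, ∀ j ∈ range N0, (j ∈ J k i ↔ ∀ᶠ k' in U, j ∈ J k' i) := by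
    refine (eventually_all_finset _).2 fun i _ => (eventually_all_finset _).2 fun j _ => ?_
    rcases U.em fun k => j ∈ J k i with h' | h'
    · exact h'.mono fun k hk => iff_of_true hk h'
    · exact h'.mono fun k hk => iff_of_false hk (Ultrafilter.eventually_not.1 h')
  obtain ⟨k', hk'⟩ := h1.exists
  have h2 := (H.tendsto (anc_lip1 l m n ν (J k')) (anc_bd l m n ν (J k'))).eventually
    (gt_mem_nhds (half_pos hc))
  obtain ⟨k, g1, g2, g3, g4⟩ := (h.and (h1.and ((h2.filter_mono hU).and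
    (hU (eventually_ge_atTop k0))))).exists
  obtain ⟨M, hM, -⟩ := anc_dep l m n ν (J k)
  obtain ⟨M', hM', -⟩ := anc_dep l m n ν (J k')
  refine ⟨k, g4, fun x => anc l m n ν (J k) x - anc l m n ν (J k') x, thr l n, max M M', rfl,
    le_rfl, ?_, fun x hx => ?_, fun J' => ?_⟩
  · rw [pr_sub]
    have b2 := abs_sub_abs_le_abs_sub (pr (μ k) (anc l m n ν (J k))) (pr (μ k) (anc l m n ν (J k')))
    have g3' : |pr (μ k) (anc l m n ν (J k'))| < c / 2 := g3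
    linarith
  · by_contra hcon
    refine hx (sub_eq_zero.2 (anc_eq (fun _ _ => rfl) fun i hi j => ?_))
    by_cases hj : j < N0
    · left
      rw [g2 i (mem_range.2 hi) j (mem_range.2 hj), hk' i (mem_range.2 hi) j (mem_range.2 hj)]
    · by_cases hj' : j < max M M'
      · right
        by_contra h'
        exact hcon ⟨j, not_lt.1 hj, hj', (not_le.1 h').le⟩
      · left
        exact iff_of_false (fun h' => hj' (lt_max_of_lt_left (hM i hi j h')))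
          fun h' => hj' (lt_max_of_lt_right (hM' i hi j h'))
  · simp only [sub_mul]
    exact ⟨(anc_cut _ _ _ _ _ _).1.sub (anc_cut _ _ _ _ _ _).1,
      (anc_cut _ _ _ _ _ _).2.sub (anc_cut _ _ _ _ _ _).2⟩

theorem caseA1 (H : HH μ C) (U : Ultrafilter ℕ) (hU : (U : Filter ℕ) ≤ atTop) {c : ℝ}
    (hc : 0 < c) (l m : ℕ) (n : ℕ → ℤ) (ν : ℕ → ℕ → ℤ) (J : ℕ → ℕ → Finset ℕ)
    (h : ∀ᶠ k in U, c ≤ |pr (μ k) (anc l m (n k) (ν k) (J k))|) : False := by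
  have hgood : ∀ᶠ k in U, Bd (anc l m (n k) (ν k) (J k)) 1 ∧
      Lip (anc l m (n k) (ν k) (J k)) 1 ∧ c ≤ |pr (μ k) (anc l m (n k) (ν k) (J k))| :=
    h.mono fun k hk => ⟨anc_bd _ _ _ _ _, anc_lip1 _ _ _ _ _, hk⟩
  rcases dichZ U n with ⟨n0, hn⟩ | hn
  · rcases const_all U ν (2 * m) with ⟨ν0, hν⟩ | ⟨i, hi, hν⟩
    · refine caseA0 H U hU hc l m n0 ν0 J ?_
      filter_upwards [h, hn, hν] with k g1 g2 g3
      have : anc l m (n k) (ν k) (J k) = anc l m n0 ν0 (J k) := by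
        rw [g2]; funext x; exact anc_eq g3 fun _ _ _ => Or.inl Iff.rfl
      rwa [this] at g1
    · refine clique H hU hc (φ := fun k => anc l m (n k) (ν k) (J k)) ?_
      filter_upwards [hgood, hn] with k g1 g2
      refine ⟨g1, ?_⟩
      filter_upwards [hn, hν (ν k i) 4] with k' g4 g6 x
      by_contra hcon
      rw [not_or, g2, g4] at hcon
      have b1 := abs_lt.1 (anc_loc hcon.1 hi)
      have b2 := abs_lt.1 (anc_loc hcon.2 hi)
      rcases g6 with g6 | g6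
      · have : (ν k' i : ℝ) ≤ ν k i - 4 := by exact_mod_cast g6
        linarith [b1.1, b2.2]
      · have : (ν k i : ℝ) + 4 ≤ ν k' i := by exact_mod_cast g6
        linarith [b1.2, b2.1]
  · refine clique H hU hc (φ := fun k => anc l m (n k) (ν k) (J k)) ?_
    filter_upwards [hgood] with k g1
    refine ⟨g1, ?_⟩
    filter_upwards [hn (n k) 4] with k' g6 x
    by_contra hcon
    rw [not_or] at hcon
    have b1 := anc_anchor hcon.1
    have b2 := anc_anchor hcon.2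
    have b3 := Ex_lt_iff.1 (b1.1.trans b2.2)
    have b4 := Ex_lt_iff.1 (b2.1.trans b1.2)
    rcases g6 with g6 | g6
    · have : (n k' : ℝ) ≤ n k - 4 := by exact_mod_cast g6
      linarith
    · have : (n k : ℝ) + 4 ≤ n k' := by exact_mod_cast g6
      linarith

theorem caseA2 (H : HH μ C) (U : Ultrafilter ℕ) (hU : (U : Filter ℕ) ≤ atTop) {c : ℝ}
    (hc : 0 < c) (l : ℕ) (m : ℕ → ℕ) (n : ℕ → ℤ) (ν : ℕ → ℕ → ℤ) (J : ℕ → ℕ → Finset ℕ)
    (hm : ∀ B, ∀ᶠ k in U, B ≤ m k)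
    (h : ∀ᶠ k in U, c ≤ |pr (μ k) (anc l (m k) (n k) (ν k) (J k))|) : False := by
  by_cases hn : ∀ B : ℤ, ∀ᶠ k in U, n k ≤ B
  · have hr : Tendsto (fun k => Ex (n k)) U (𝓝 0) := by
      have h1 : Tendsto n U atBot := tendsto_atBot.2 hn
      exact Real.tendsto_exp_atBot.comp
        ((tendsto_intCast_atBot_iff.2 h1).const_mul_atBot kap_pos)
    refine shrink H U hU hc (fun k => anc l (m k) (n k) (ν k) (J k)) (fun k => 2 * m k)
      (fun k j => ν k j * (KK * Ex (n k)) / eps j) _ (fun j => 2 * KK / eps j) (2 * Ex 2) hr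
      (h.mono fun k hk => ⟨⟨anc_bd _ _ _ _ _, anc_lip1 _ _ _ _ _, hk⟩, anc_sm _ _ _ _ _,
        anc_amp _ _ _ _ _, fun x hx j hj => anc_box hx hj⟩) Set.univ_nonempty fun M0 _ => ?_
    filter_upwards [hm M0] with k hk
    obtain ⟨M, -, hM⟩ := anc_dep l (m k) (n k) (ν k) (J k)
    exact ⟨by omega, max M0 M, trivial, le_max_left _ _, hM.mono (le_max_right _ _)⟩
  · obtain ⟨n0, hn0⟩ := not_forall.1 hn
    have h1 : ∀ᶠ k in U, n0 ≤ n k :=
      (Ultrafilter.eventually_not.2 hn0).mono fun k hk => (not_le.1 hk).le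
    have h2 : ∀ᶠ k in U, ∀ᶠ k' in U, n k ≤ n k' := by
      rcases dichZ U n with ⟨v, hv⟩ | hv
      · exact hv.mono fun k hk => hv.mono fun k' hk' => (hk.trans hk'.symm).le
      · filter_upwards [h1] with k hk
        filter_upwards [h1, hv n0 (n k - n0 + 1)] with k' g1 g2
        omega
    have p := div_pos (ww_pos (l + 1)) (ww_pos l)
    refine tail H (T := {τ | ∃ v : ℤ, τ = thr l v ∧ ∀ᶠ k in U, v ≤ n k}) ⟨_, n0, rfl, h1⟩
      (fun τ ⟨v, hv, _⟩ => hv ▸ thr_pos l v) p.le p hc fun N0 k0 τ0 ⟨v, hv, hv'⟩ => ?_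
    obtain ⟨k, g1, g2, g3, g4, g5⟩ :=
      (h.and (h2.and (hv'.and ((hm N0).and (hU (eventually_ge_atTop k0)))))).exists
    refine ⟨k, g5, anc l (m k) (n k) (ν k) (J k), thr l (n k), 2 * m k + 2, ⟨_, rfl, g2⟩,
      hv ▸ thr_mono l g3, g1, fun x hx => ⟨2 * m k + 1, by omega, by omega, ?_⟩,
      fun J' => anc_cut _ _ _ _ _ _⟩
    rw [hv]
    exact (thr_mono l g3).trans ((thr_le l _).trans ((anc_anchor hx).1.le.trans (le_abs_self _)))

theorem caseA (H : HH μ C) (U : Ultrafilter ℕ) (hU : (U : Filter ℕ) ≤ atTop) {c : ℝ}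
    (hc : 0 < c) (l m : ℕ → ℕ) (n : ℕ → ℤ) (ν : ℕ → ℕ → ℤ) (J : ℕ → ℕ → Finset ℕ)
    (h : ∀ᶠ k in U, c ≤ |pr (μ k) (anc (l k) (m k) (n k) (ν k) (J k))|) : False := by
  rcases dichN U l with ⟨l0, hl⟩ | hl
  · rcases dichN U m with ⟨m0, hm⟩ | hm
    · refine caseA1 H U hU hc l0 m0 n ν J ?_
      filter_upwards [h, hl, hm] with k g1 g2 g3
      rwa [g2, g3] at g1
    · refine caseA2 H U hU hc l0 m n ν J hm ?_
      filter_upwards [h, hl] with k g1 g2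
      rwa [g2] at g1
  · refine lemD H (L := 0) one_pos hc fun η hη N => ?_
    obtain ⟨B, hB⟩ := exists_pow_lt_of_lt_one hη (one_half_lt_one (α := ℝ))
    have h1 := Nat.frequently_atTop_iff_infinite.1 ((h.and (hl B)).frequently.filter_mono hU)
    obtain ⟨s, hs, hN⟩ := h1.exists_subset_card_eq N
    refine ⟨s, fun k => anc (l k) (m k) (n k) (ν k) (J k), hN,
      fun k hk => ⟨anc_bd _ _ _ _ _, (hs hk).1⟩, fun e he => ?_⟩
    have := Lip.sum s (f := fun k x => e k * anc (l k) (m k) (n k) (ν k) (J k) x)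
      (L := fun _ => η) fun k hk => ((anc_lip _ _ _ _ _).smul (e k)).mono (by
        have b1 : (1 : ℝ) / 2 ^ l k ≤ (1 / 2) ^ B := by
          rw [one_div_pow]
          exact one_div_le_one_div_of_le (by positivity) (pow_le_pow_right₀ one_le_two (hs hk).2)
        have b2 := mul_le_of_le_one_left (by positivity : (0 : ℝ) ≤ 1 / 2 ^ l k) (he k)
        linarith)
    simpa [hN] using this

theorem mainC (H : HH μ C) {c : ℝ} (hc : 0 < c) :
    ∀ᶠ k in atTop, ∀ φ ∈ Phi, |pr (μ k) φ| ≤ c := by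
  by_contra h
  have h1 : ∃ᶠ k in atTop, ∃ φ ∈ Phi, c ≤ |pr (μ k) φ| :=
    (not_eventually.1 h).mono fun k hk => by
      simp only [not_forall, not_le] at hk
      obtain ⟨φ, h1, h2⟩ := hk
      exact ⟨φ, h1, h2.le⟩
  have := frequently_iff_neBot.1 h1
  obtain ⟨U, hU⟩ := Ultrafilter.exists_le (atTop ⊓ 𝓟 {k | ∃ φ ∈ Phi, c ≤ |pr (μ k) φ|})
  have hU1 := hU.trans inf_le_left
  have hU2 : ∀ᶠ k in U, (∃ l m n ν J, c ≤ |pr (μ k) (anc l m n ν J)|) ∨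
      ∃ n M j ν, j < M ∧ M ≤ n ∧ c ≤ |pr (μ k) (sml n M j ν)| := by
    filter_upwards [le_principal_iff.1 (hU.trans inf_le_right)] with k hk
    obtain ⟨φ, ⟨l, m, n, ν, J, rfl⟩ | ⟨n, M, j, ν, g1, g2, rfl⟩, h2⟩ := hk
    · exact Or.inl ⟨l, m, n, ν, J, h2⟩
    · exact Or.inr ⟨n, M, j, ν, g1, g2, h2⟩
  rcases Ultrafilter.eventually_or.1 hU2 with h2 | h2
  · obtain ⟨l, h2⟩ := h2.choice
    obtain ⟨m, h2⟩ := h2.choice
    obtain ⟨n, h2⟩ := h2.choice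
    obtain ⟨ν, h2⟩ := h2.choice
    obtain ⟨J, h2⟩ := h2.choice
    exact caseA H U hU1 hc l m n ν J h2
  · obtain ⟨n, h2⟩ := h2.choice
    obtain ⟨M, h2⟩ := h2.choice
    obtain ⟨j, h2⟩ := h2.choice
    obtain ⟨ν, h2⟩ := h2.choice
    exact caseS H U hU1 hc n M j ν h2

end Vale.Agent.P124
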