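import Vale.Agent.P124.Main
import Vale.Agent.P124.Lp

namespace Vale.Agent.P124
open Finset Filter Topology TopologicalSpace

def AA (n : ℕ) : Type := {f : (ℕ → ℝ) → ℝ // Lip f (1 / 2 ^ n) ∧ Bd f (2 ^ n)}

noncomputable abbrev Big := lp (fun n : ℕ => Linf (AA n)) 1

noncomputable def gam (n : ℕ) (p : C0) : Linf (AA n) :=
  Linf.mk (fun f => f.1 p - f.1 0) (1 / 2 ^ n * ‖p‖) fun f =>
    f.2.1 p 0 _ fun j => by simpa using p.abs_le j

lemma gam_apply (n : ℕ) (p : C0) (f : AA n) : (gam n p).ev f = f.1 p - f.1 0 := rfl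

lemma gam_sub (n : ℕ) (p q : C0) : ‖gam n p - gam n q‖ ≤ (1 / 2) ^ n * ‖p - q‖ := by
  refine Linf.norm_le _ (by positivity) fun f => ?_
  simp only [Linf.ev_sub, gam_apply, sub_sub_sub_cancel_right, one_div_pow]
  exact f.2.1 p q _ (p.near q)

lemma gam_zero (n : ℕ) : gam n 0 = 0 := by
  refine Linf.ext fun f => ?_
  rw [gam_apply]; simp

noncomputable def Gam0 (p : C0) : Big :=
  ⟨fun n => gam n p, l1_mem ((summable_geometric_two.mul_right ‖p‖).of_nonneg_of_le
    (fun _ => norm_nonneg _) fun n => by simpa [gam_zero] using gam_sub n p 0)⟩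

lemma Gam0_apply (p : C0) (n : ℕ) : Gam0 p n = gam n p := rfl

lemma Gam0_lip (p q : C0) : ‖Gam0 p - Gam0 q‖ ≤ 2 * ‖p - q‖ :=
  hasSum_le (fun n => gam_sub n p q) (l1_hasSum (Gam0 p - Gam0 q))
    (hasSum_geometric_two.mul_right ‖p - q‖)

lemma Gam0_cont : Continuous Gam0 :=
  (LipschitzWith.of_dist_le_mul (K := 2) fun p q => by
    simpa [dist_eq_norm] using Gam0_lip p q).continuous

noncomputable def ZS : Submodule ℝ Big := (Submodule.span ℝ (Set.range Gam0)).topologicalClosure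

abbrev ZZ : Type := ZS

instance : CompleteSpace ZZ :=
  inferInstanceAs (CompleteSpace (Submodule.span ℝ (Set.range Gam0)).topologicalClosure)

instance : SeparableSpace ZZ :=
  ((isSeparable_range Gam0_cont).span (R := ℝ)).closure.separableSpace

noncomputable def Gam (p : C0) : ZZ :=
  ⟨Gam0 p, Submodule.le_topologicalClosure _ (Submodule.subset_span ⟨p, rfl⟩)⟩

lemma Gam_lip (p q : C0) : ‖Gam p - Gam q‖ ≤ 2 * ‖p - q‖ := Gam0_lip p q

lemma Gam_zero : Gam 0 = 0 := by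
  apply Subtype.ext
  apply lp.ext
  funext n
  exact gam_zero n

noncomputable def iota (μ : C0 →₀ ℝ) : Big := ∑ p ∈ μ.support, μ p • Gam0 p

lemma iota_apply (μ : C0 →₀ ℝ) (n : ℕ) (f : AA n) : (iota μ n).ev f = pr μ f.1 := by
  unfold iota
  rw [lp_sum_apply, Linf.ev_sum]; rfl

lemma approx (z : ZZ) {ε : ℝ} (hε : 0 < ε) : ∃ μ, ‖z.1 - iota μ‖ ≤ ε := by
  obtain ⟨w, hw, h⟩ := Metric.mem_closure_iff.1 z.2 ε hε
  obtain ⟨μ, rfl⟩ := Finsupp.mem_span_range_iff_exists_finsupp.1 hw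
  exact ⟨μ, by rw [dist_eq_norm] at h; exact h.le⟩

theorem PP_Z : PP ZZ := fun v C hC => by
  choose μ hμ using fun k => approx (v k) (by positivity : (0 : ℝ) < (1 / 2) ^ k)
  have h1 : ∀ (s : Finset ℕ) (t : ℕ → ℝ), (∀ k, |t k| ≤ 1) →
      ‖∑ k ∈ s, t k • iota (μ k)‖ ≤ C + 2 := fun s t ht => by
    have e : ∑ k ∈ s, t k • iota (μ k) =
        (∑ k ∈ s, t k • v k : ZZ).1 - ∑ k ∈ s, t k • ((v k).1 - iota (μ k)) := by
      rw [Submodule.coe_sum, ← sum_sub_distrib]
      exact sum_congr rfl fun k _ => by rw [Submodule.coe_smul, ← smul_sub, sub_sub_cancel]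
    rw [e]
    refine (norm_sub_le _ _).trans (add_le_add (hC s t ht) ((norm_sum_le _ _).trans ?_))
    refine (sum_le_sum (g := fun k => (1 / 2 : ℝ) ^ k) fun k _ => ?_).trans ?_
    · rw [norm_smul]
      exact (mul_le_of_le_one_left (norm_nonneg _) (ht k)).trans (hμ k)
    · exact sum_le_hasSum s (fun _ _ => by positivity) hasSum_geometric_two
  have H : HH μ (C + 2) := fun n f hL hB s t ht => by
    obtain ⟨F, rfl⟩ : ∃ F : AA n, F.1 = f := ⟨⟨f, hL, hB⟩, rfl⟩
    have h2 := (Linf.ev_le _ F).trans ((l1_apply_le _ n).trans (h1 s t ht))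
    rw [lp_sum_apply, Linf.ev_sum] at h2
    simpa only [iota_apply, Linf.ev_smul] using h2
  have h2 : ∀ n, Tendsto (fun k => ‖(v k).1 n‖) atTop (𝓝 0) := fun n => by
    have h3 : Tendsto (fun k => iota (μ k) n) atTop (𝓝 0) := by
      rw [NormedAddGroup.tendsto_nhds_zero]
      intro ε hε
      filter_upwards [mainC H (c := ε / 2 / 2 ^ n) (by positivity)] with k hk
      refine (Linf.norm_le _ (half_pos hε).le fun f => ?_).trans_lt (half_lt_self hε)
      rw [iota_apply]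
      have := f.2.2 (μ k) _ (by positivity) hk
      rwa [mul_div_cancel₀ _ (by positivity)] at this
    have h4 : Tendsto (fun k => ((v k).1 - iota (μ k)) n) atTop (𝓝 0) :=
      squeeze_zero_norm (fun k => (l1_apply_le _ n).trans (hμ k))
        (tendsto_pow_atTop_nhds_zero_of_lt_one (by norm_num) (by norm_num))
    have h5 := (h4.add h3).norm
    simpa using h5
  have h3 := hump (fun k => (v k).1) h2 (C := C) fun s => by
    have := hC s (fun _ => 1) (by simp)
    simp only [one_smul] at this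
    rwa [← Submodule.coe_sum]
  have h4 := tendsto_zero_iff_norm_tendsto_zero.1 h3
  exact tendsto_zero_iff_norm_tendsto_zero.2 h4

abbrev II : Type := ℤ × (ℕ → ℤ)

noncomputable def lam (m : ℕ) (i : II) : AA 0 :=
  ⟨anc 0 m i.1 i.2 fun _ => ∅, anc_lip _ _ _ _ _, by simpa using anc_bd 0 m i.1 i.2 fun _ => ∅⟩

lemma piL_bd (m : ℕ) (z : ZZ) (i : II) : |ww 0 * (z.1 0).ev (lam m i)| ≤ ww 0 * ‖z‖ := by
  rw [abs_mul, abs_of_pos (ww_pos 0)]
  exact mul_le_mul_of_nonneg_left ((Linf.ev_le _ _).trans (l1_apply_le _ _)) (ww_pos 0).le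

noncomputable def piL (m : ℕ) : ZZ →ₗ[ℝ] Linf II where
  toFun z := Linf.mk (fun i => ww 0 * (z.1 0).ev (lam m i)) _ (piL_bd m z)
  map_add' _ _ := Linf.ext fun _ => mul_add _ _ _
  map_smul' _ _ := Linf.ext fun _ => mul_left_comm _ _ _

lemma piL_le (m : ℕ) (z : ZZ) : ‖piL m z‖ ≤ ww 0 * ‖z‖ :=
  Linf.norm_le _ (mul_nonneg (ww_pos 0).le (norm_nonneg _)) (piL_bd m z)

lemma piL_Gam (m : ℕ) (p : C0) (i : II) :
    (piL m (Gam p)).ev i = p (2 * m) * gg 0 m i.1 i.2 (fun _ => ∅) p := by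
  change ww 0 * (anc 0 m i.1 i.2 (fun _ => ∅) p - anc 0 m i.1 i.2 (fun _ => ∅) 0) = _
  have := (ww_pos 0).ne'
  unfold anc
  simp only [Pi.zero_apply, zero_mul, zero_div, sub_zero]
  field_simp

lemma piL_tendsto (z : ZZ) : Tendsto (fun m => ‖piL m z‖) atTop (𝓝 0) := by
  have h1 : ∀ p : C0, Tendsto (fun m => piL m (Gam p)) atTop (𝓝 0) := fun p => by
    have h := (p.tendsto.comp (tendsto_id.const_mul_atTop' (by norm_num : 0 < 2))).abs
    rw [abs_zero] at h
    refine squeeze_zero_norm (fun m => Linf.norm_le _ (abs_nonneg _) fun i => ?_) h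
    rw [piL_Gam, abs_mul, abs_of_nonneg (gg_01 _ _ _ _ _ _).1]
    exact mul_le_of_le_one_right (abs_nonneg _) (gg_01 _ _ _ _ _ _).2
  rw [← tendsto_zero_iff_norm_tendsto_zero, NormedAddGroup.tendsto_nhds_zero]
  intro ε hε
  have hw := ww_pos 0
  obtain ⟨μ, hμ⟩ := approx z (by positivity : 0 < ε / 2 / ww 0)
  set w : ZZ := ∑ p ∈ μ.support, μ p • Gam p with hw'
  have h2 : ‖z - w‖ ≤ ε / 2 / ww 0 := by
    have : w.1 = iota μ := by rw [hw', Submodule.coe_sum]; rfl
    rwa [← this] at hμ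
  have h3 : Tendsto (fun m => piL m w) atTop (𝓝 0) := by
    simp only [hw', map_sum, map_smul]
    have := tendsto_finsetSum μ.support fun p _ => (h1 p).const_smul (μ p)
    simpa using this
  filter_upwards [NormedAddGroup.tendsto_nhds_zero.1 h3 _ (half_pos hε)] with m hm
  have h4 := (piL_le m (z - w)).trans (mul_le_mul_of_nonneg_left h2 hw.le)
  rw [mul_div_cancel₀ _ hw.ne', map_sub] at h4
  have h5 := norm_le_norm_add_norm_sub' (piL m z) (piL m w)
  linarith

end Vale.Agent.P124
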