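import Vale.Agent.P124.Interp

namespace Vale.Agent.P124
open Finset Filter Topology

lemma est (m : ℕ) {q q' : ℕ → ℝ} {ρ ρ' t W : ℝ} {u u' : Linf II} (h1 : ‖u‖ ≤ ρ) (h2 : ‖u'‖ ≤ ρ')
    (hq : Near q q' t) (hρ : |ρ - ρ'| ≤ t) (hW : ‖u - u'‖ ≤ W) :
    |phi m q ρ u - phi m q' ρ' u'| ≤ t / 10 + W ∧
    ‖(u - phi m q ρ u • th m q ρ) - (u' - phi m q' ρ' u' • th m q' ρ')‖ ≤ 2 * W + t / 5 := by
  wlog h : ρ ≤ ρ' generalizing q q' ρ ρ' u u'
  · rw [abs_sub_comm, norm_sub_rev]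
    exact this h2 h1 hq.symm (by rwa [abs_sub_comm]) (by rwa [norm_sub_rev]) (le_of_not_ge h)
  have ht := hq.nonneg
  have b1 := phi_bd m q ρ u
  have key : |phi m q ρ u - phi m q' ρ' u| ≤ t / 10 ∧
      |phi m q ρ u| * ‖th m q ρ - th m q' ρ'‖ ≤ t / 10 := by
    rcases le_or_gt ρ 0 with h0 | h0
    · have b2 := phi_bd m q' ρ' u
      have b3 : phi m q ρ u = 0 := abs_nonpos_iff.1 (by linarith)
      rw [b3, zero_sub, abs_neg, abs_zero, zero_mul]
      constructor <;> linarith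
    · have b2 := phi_lip m h0 le_rfl h hq hρ u
      have b3 := th_lip m h0 le_rfl h hq hρ
      constructor
      · by_contra hc
        nlinarith [not_le.1 hc]
      · exact (mul_le_mul_of_nonneg_right (b1.trans h1) (norm_nonneg _)).trans b3
  have b4 := phi_sub m q' ρ' u u'
  have b5 : |phi m q ρ u - phi m q' ρ' u'| ≤ t / 10 + W :=
    (abs_sub_le _ _ _).trans (add_le_add key.1 (b4.trans hW))
  refine ⟨b5, ?_⟩
  have e : (u - phi m q ρ u • th m q ρ) - (u' - phi m q' ρ' u' • th m q' ρ') =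
      (u - u') - phi m q ρ u • (th m q ρ - th m q' ρ') -
        (phi m q ρ u - phi m q' ρ' u') • th m q' ρ' := by
    rw [smul_sub, sub_smul]; abel
  rw [e]
  refine (norm_sub_le _ _).trans ((add_le_add_left (norm_sub_le _ _) _).trans ?_)
  rw [norm_smul, norm_smul, Real.norm_eq_abs, Real.norm_eq_abs]
  have b6 := mul_le_of_le_one_right (abs_nonneg (phi m q ρ u - phi m q' ρ' u')) (th_norm m q' ρ')
  linarith [key.2]

lemma gauge_ge (m : ℕ) (q : ℕ → ℝ) (ρ e : ℝ) (u : Linf II) :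
    ‖u‖ ≤ |e| + ‖u - e • th m q ρ‖ ∧ ‖u - e • th m q ρ‖ ≤ ‖u‖ + |e| := by
  have h1 : ‖e • th m q ρ‖ ≤ |e| := by
    rw [norm_smul]; exact mul_le_of_le_one_right (abs_nonneg _) (th_norm m q ρ)
  have h2 := norm_le_norm_add_norm_sub' u (e • th m q ρ)
  have h3 := norm_sub_le u (e • th m q ρ)
  constructor <;> linarith

noncomputable def nw (s : ℝ) (c : ℕ → ℝ) (u : ℕ → Linf II) (q r : ℕ → ℝ) (j : ℕ) : ℝ :=
  if j % 2 = 0 then s * (c (j / 2) - phi (j / 2) q (r (j / 2)) (u (j / 2))) else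
    |c (j / 2)| + |phi (j / 2) q (r (j / 2)) (u (j / 2))| +
      ‖u (j / 2) - phi (j / 2) q (r (j / 2)) (u (j / 2)) • th (j / 2) q (r (j / 2))‖

lemma nw_even (s : ℝ) (c : ℕ → ℝ) (u : ℕ → Linf II) (q r : ℕ → ℝ) (m : ℕ) :
    nw s c u q r (2 * m) = s * (c m - phi m q (r m) (u m)) := by
  simp [nw]

lemma nw_odd (s : ℝ) (c : ℕ → ℝ) (u : ℕ → Linf II) (q r : ℕ → ℝ) (m : ℕ) :
    nw s c u q r (2 * m + 1) =
      |c m| + |phi m q (r m) (u m)| + ‖u m - phi m q (r m) (u m) • th m q (r m)‖ := by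
  have h1 : (2 * m + 1) / 2 = m := by omega
  have h2 : (2 * m + 1) % 2 ≠ 0 := by omega
  simp only [nw, h1, h2, if_false]

lemma nw_bd {s : ℝ} (hs : |s| = 1) (c : ℕ → ℝ) (u : ℕ → Linf II) (q r : ℕ → ℝ) (j : ℕ) :
    |nw s c u q r j| ≤ |c (j / 2)| + 3 * ‖u (j / 2)‖ := by
  have h1 := phi_bd (j / 2) q (r (j / 2)) (u (j / 2))
  have h0 := norm_nonneg (u (j / 2))
  unfold nw
  split_ifs
  · rw [abs_mul, hs, one_mul]
    exact (abs_sub _ _).trans (by linarith)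
  · rw [abs_of_nonneg (by positivity)]
    linarith [(gauge_ge (j / 2) q (r (j / 2)) (phi (j / 2) q (r (j / 2)) (u (j / 2)))
      (u (j / 2))).2]

lemma nw_lip {s : ℝ} (hs : |s| = 1) {c c' : ℕ → ℝ} {u u' : ℕ → Linf II} {q q' r r' : ℕ → ℝ}
    {t A W : ℝ} (hc : Near c c' A) (hu : ∀ m, ‖u m - u' m‖ ≤ W) (hq : Near q q' t)
    (hr : Near r r' t) (h1 : ∀ m, ‖u m‖ ≤ r m) (h2 : ∀ m, ‖u' m‖ ≤ r' m) :
    Near (nw s c u q r) (nw s c' u' q' r') (A + 3 * W + 3 / 10 * t) := by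
  intro j
  obtain ⟨g1, g2⟩ := est (j / 2) (h1 (j / 2)) (h2 (j / 2)) hq (hr _) (hu _)
  have g3 := hc (j / 2)
  have ht := hq.nonneg
  have hW := (norm_nonneg _).trans (hu 0)
  unfold nw
  split_ifs
  · rw [← mul_sub, abs_mul, hs, one_mul, sub_sub_sub_comm]
    exact (abs_sub _ _).trans (by linarith)
  · have a1 := abs_le.1 ((abs_abs_sub_abs_le_abs_sub _ _).trans g3)
    have a2 := abs_le.1 ((abs_abs_sub_abs_le_abs_sub _ _).trans g1)
    have a3 := abs_le.1 ((abs_norm_sub_norm_le _ _).trans g2)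
    rw [abs_le]
    constructor <;> linarith [a1.1, a1.2, a2.1, a2.2, a3.1, a3.2]

def Sol (s : ℝ) (c : ℕ → ℝ) (u : ℕ → Linf II) (p : ℕ → ℝ) : Prop :=
  ∀ j, p j = nw s c u p (fun m => p (2 * m + 1)) j

lemma Sol.ge {s : ℝ} {c : ℕ → ℝ} {u : ℕ → Linf II} {p : ℕ → ℝ} (h : Sol s c u p) (m : ℕ) :
    ‖u m‖ ≤ p (2 * m + 1) := by
  have h1 := h (2 * m + 1)
  rw [nw_odd] at h1
  linarith [(gauge_ge m p (p (2 * m + 1)) (phi m p (p (2 * m + 1)) (u m)) (u m)).1,
    abs_nonneg (c m)]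

lemma Sol.ge' {s : ℝ} (hs : |s| = 1) {c : ℕ → ℝ} {u : ℕ → Linf II} {p : ℕ → ℝ}
    (h : Sol s c u p) (m : ℕ) : |p (2 * m)| ≤ p (2 * m + 1) := by
  have h1 := h (2 * m + 1)
  have h2 := h (2 * m)
  rw [nw_odd] at h1
  rw [nw_even] at h2
  rw [h2, abs_mul, hs, one_mul]
  refine (abs_sub _ _).trans ?_
  linarith [norm_nonneg (u m - phi m p (p (2 * m + 1)) (u m) • th m p (p (2 * m + 1)))]

lemma sol_ex {s : ℝ} (hs : |s| = 1) (c : C0) {u : ℕ → Linf II}
    (hu : Tendsto (fun m => ‖u m‖) atTop (𝓝 0)) : ∃ p : C0, Sol s c u p := by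
  have h0 : Tendsto (fun j => |c (j / 2)| + 3 * ‖u (j / 2)‖) atTop (𝓝 0) := by
    have := (c.tendsto.abs.add (hu.const_mul 3)).comp (Nat.tendsto_div_const_atTop two_ne_zero)
    simpa [Function.comp_def] using this
  let T : C0 → C0 := fun p => C0.of (nw s c u p fun m => max (p (2 * m + 1)) ‖u m‖)
    (squeeze_zero_norm (fun j => nw_bd hs _ _ _ _ j) h0)
  have hT : ContractingWith (3 / 10) T := by
    refine ⟨by norm_num, LipschitzWith.of_dist_le_mul fun p p' => ?_⟩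
    rw [dist_eq_norm, dist_eq_norm]
    refine C0.norm_le _ (by positivity) fun j => ?_
    have := nw_lip hs (c := c) (c' := c) (u := u) (u' := u) (A := 0) (W := 0) (fun _ => by simp)
      (fun _ => by simp) (p.near p') (r := fun m => max (p (2 * m + 1)) ‖u m‖)
      (r' := fun m => max (p' (2 * m + 1)) ‖u m‖)
      (fun m => (abs_max_sub_max_le_abs _ _ _).trans (p.near p' _))
      (fun _ => le_max_right _ _) (fun _ => le_max_right _ _) j
    simpa [T] using this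
  obtain ⟨p, hp0⟩ : ∃ p, T p = p := ⟨_, hT.fixedPoint_isFixedPt⟩
  have hp : ∀ j, p j = nw s c u p (fun m => max (p (2 * m + 1)) ‖u m‖) j := fun j => by
    conv_lhs => rw [← hp0]
    rfl
  have h1 : (fun m => max (p (2 * m + 1)) ‖u m‖) = fun m => p (2 * m + 1) := by
    funext m
    refine max_eq_left ?_
    have h1 := hp (2 * m + 1)
    rw [nw_odd] at h1
    linarith [(gauge_ge m p (max (p (2 * m + 1)) ‖u m‖)
      (phi m p (max (p (2 * m + 1)) ‖u m‖) (u m)) (u m)).1, abs_nonneg (c m)]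
  rw [h1] at hp
  exact ⟨p, hp⟩

lemma sol_lip {s : ℝ} (hs : |s| = 1) {c c' : ℕ → ℝ} {u u' : ℕ → Linf II} {p p' : C0}
    (h : Sol s c u p) (h' : Sol s c' u' p') {A W : ℝ} (hc : Near c c' A)
    (hu : ∀ m, ‖u m - u' m‖ ≤ W) : ‖p - p'‖ ≤ 10 / 7 * (A + 3 * W) ∧
      ∀ m, |phi m p (p (2 * m + 1)) (u m) - phi m p' (p' (2 * m + 1)) (u' m)| ≤
        A / 7 + 10 / 7 * W := by
  have h1 := nw_lip hs hc hu (p.near p') (r := fun m => p (2 * m + 1))
    (r' := fun m => p' (2 * m + 1)) (fun m => p.near p' _) h.ge h'.ge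
  have h2 : ‖p - p'‖ ≤ A + 3 * W + 3 / 10 * ‖p - p'‖ :=
    C0.norm_le _ h1.nonneg fun j => by
      rw [ZeroAtInftyContinuousMap.sub_apply, h j, h' j]; exact h1 j
  refine ⟨by linarith, fun m => ?_⟩
  have := (est m (h.ge m) (h'.ge m) (p.near p') (p.near p' _) (hu m)).1
  linarith

open Classical in
noncomputable def sol (s : ℝ) (x : C0 × ZZ) : C0 :=
  if h : |s| = 1 then (sol_ex h x.1 (piL_tendsto x.2)).choose else 0

lemma sol_spec {s : ℝ} (hs : |s| = 1) (x : C0 × ZZ) :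
    Sol s x.1 (fun m => piL m x.2) (sol s x) := by
  unfold sol; rw [dif_pos hs]; exact (sol_ex hs x.1 (piL_tendsto x.2)).choose_spec

noncomputable def sw (s : ℝ) (x : C0 × ZZ) : C0 × ZZ :=
  (C0.of (fun m => phi m (sol s x) (sol s x (2 * m + 1)) (piL m x.2))
    (squeeze_zero_norm (fun _ => phi_bd _ _ _ _) (piL_tendsto x.2)), x.2 + s • Gam (sol s x))

lemma sol_unique {s : ℝ} (hs : |s| = 1) {x : C0 × ZZ} {p : C0}
    (h : Sol s x.1 (fun m => piL m x.2) p) : sol s x = p := by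
  have := (sol_lip hs (sol_spec hs x) h (A := 0) (W := 0) (fun _ => by simp) fun _ => by simp).1
  exact sub_eq_zero.1 (norm_le_zero_iff.1 (by linarith))

lemma sw_zero {s : ℝ} (hs : |s| = 1) : sw s 0 = 0 := by
  have h0 : ∀ m q ρ, phi m q ρ 0 = 0 := fun m q ρ =>
    abs_nonpos_iff.1 (by simpa using phi_bd m q ρ 0)
  have h : sol s 0 = 0 := sol_unique hs fun j => by simp [nw, h0]
  unfold sw
  ext1
  · ext m; simp [h0]
  · simp [h, Gam_zero]

lemma sw_lip {s : ℝ} (hs : |s| = 1) (x y : C0 × ZZ) :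
    ‖(sw s x).1 - (sw s y).1‖ ≤ 1 / 7 * ‖x.1 - y.1‖ + 10 * ww 0 * ‖x.2 - y.2‖ ∧
    ‖(sw s x).2 - (sw s y).2‖ ≤ 10 * ww 0 * (‖x.1 - y.1‖ + ‖x.2 - y.2‖) := by
  obtain ⟨h1, h2⟩ := sol_lip hs (sol_spec hs x) (sol_spec hs y) (x.1.near y.1)
    (W := ww 0 * ‖x.2 - y.2‖) fun m => by rw [← map_sub]; exact piL_le m _
  have p1 := ww_ge 0
  have p2 := norm_nonneg (x.1 - y.1)
  have p3 := norm_nonneg (x.2 - y.2)
  have p4 := le_mul_of_one_le_left p3 p1
  have p5 := le_mul_of_one_le_left p2 p1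
  constructor
  · refine C0.norm_le _ (by positivity) fun m => (h2 m).trans (by linarith)
  · have e : (sw s x).2 - (sw s y).2 = (x.2 - y.2) + s • (Gam (sol s x) - Gam (sol s y)) := by
      simp only [sw, smul_sub]; abel
    rw [e]
    refine (norm_add_le _ _).trans ?_
    rw [norm_smul, Real.norm_eq_abs, hs, one_mul]
    linarith [Gam_lip (sol s x) (sol s y)]

lemma sw_sw {s : ℝ} (hs : |s| = 1) (x : C0 × ZZ) : sw (-s) (sw s x) = x := by
  have hs' : |-s| = 1 := by rwa [abs_neg]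
  have hss : s * s = 1 := by rw [← abs_mul_abs_self, hs, one_mul]
  have h := sol_spec hs x
  set p := sol s x with hp
  set e : ℕ → ℝ := fun m => phi m p (p (2 * m + 1)) (piL m x.2) with he
  have h1 : ∀ m, piL m (sw s x).2 = piL m x.2 + (x.1 m - e m) • th m p (p (2 * m + 1)) := by
    intro m
    have h2 := h (2 * m)
    rw [nw_even] at h2
    simp only [sw, map_add, map_smul, ← hp]
    rw [piL_Gam_eq m p (h.ge' hs m), smul_smul, h2, ← mul_assoc, hss, one_mul]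
  have h2 : ∀ m, phi m p (p (2 * m + 1)) (piL m (sw s x).2) = x.1 m := by
    intro m
    rw [h1]
    rcases le_or_gt (p (2 * m + 1)) 0 with h0 | h0
    · have h2 := h (2 * m)
      rw [nw_even] at h2
      have h3 : p (2 * m) = 0 := abs_nonpos_iff.1 ((h.ge' hs m).trans h0)
      have h4 : x.1 m - e m = 0 := by
        rw [h3] at h2
        have := congrArg (s * ·) h2
        simp only [← mul_assoc, hss, one_mul, mul_zero] at this
        exact this.symm
      rw [h4, zero_smul, add_zero]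
      exact (sub_eq_zero.1 h4).symm
    · rw [phi_add m p h0]; simp only [he]; ring
  have h3 : sol (-s) (sw s x) = p := sol_unique hs' fun j => by
    have e1 : ∀ m, (sw s x).1 m = e m := fun _ => rfl
    rw [h j]
    unfold nw
    simp only [h2, e1]
    split_ifs
    · simp only [he]; ring
    · rw [h1, sub_smul, add_comm |x.1 (j / 2)|]
      congr 2
      abel
  ext1
  · ext m
    change phi m (sol (-s) (sw s x)) (sol (-s) (sw s x) (2 * m + 1)) (piL m (sw s x).2) = _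
    rw [h3, h2]
  · change (x.2 + s • Gam p) + (-s) • Gam (sol (-s) (sw s x)) = _
    rw [h3, neg_smul, add_neg_cancel_right]

end Vale.Agent.P124
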