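import Vale.Agent.P124.Free

namespace Vale.Agent.P124
open Finset Filter Topology

variable {μ : ℕ → C0 →₀ ℝ} {C : ℝ}

lemma supp_tail (ν : C0 →₀ ℝ) {τ : ℝ} (hτ : 0 < τ) (N0 : ℕ) :
    ∃ N, N0 ≤ N ∧ ∀ p ∈ ν.support, ∀ j, N ≤ j → |p j| ≤ τ := by
  have h : ∀ᶠ j in atTop, ∀ p ∈ ν.support, |p j| ≤ τ := by
    refine (eventually_all_finset _).2 fun p _ => ?_
    have := p.tendsto.abs
    rw [abs_zero] at this
    exact this.eventually (ge_mem_nhds hτ)
  obtain ⟨N, hN⟩ := eventually_atTop.1 h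
  exact ⟨max N0 N, le_max_left _ _, fun p hp j hj => hN j ((le_max_right _ _).trans hj) p hp⟩

theorem tail (H : HH μ C) {T : Set ℝ} (hT : T.Nonempty) (hpos : ∀ τ ∈ T, 0 < τ) {K L c : ℝ}
    (hL : 0 ≤ L) (hK : 0 < K) (hc : 0 < c)
    (h : ∀ N0 k0 : ℕ, ∀ τ0 ∈ T, ∃ k, k0 ≤ k ∧ ∃ (g : (ℕ → ℝ) → ℝ) (τ : ℝ) (Mg : ℕ),
      τ ∈ T ∧ τ0 ≤ τ ∧ c ≤ |pr (μ k) g| ∧ (∀ x, g x ≠ 0 → ∃ j, N0 ≤ j ∧ j < Mg ∧ τ0 ≤ |x j|) ∧
      ∀ J, Bd (fun x => g x * cut J τ 0 x) K ∧ Lip (fun x => g x * cut J τ 0 x) L) : False := by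
  have key : ∀ N N0 k0 : ℕ, ∀ τ0 ∈ T, ∃ (s : Finset ℕ) (M1 : ℕ), s.card = N ∧ (∀ k ∈ s, k0 ≤ k) ∧
      ∀ M, M1 ≤ M → ∃ ψ : ℕ → (ℕ → ℝ) → ℝ,
        (∀ k ∈ s, (Bd (ψ k) K ∧ Lip (ψ k) L ∧ c ≤ |pr (μ k) (ψ k)|) ∧
          ∀ x, ψ k x ≠ 0 → ∃ j, N0 ≤ j ∧ j < M ∧ τ0 ≤ |x j|) ∧
        ∀ k ∈ s, ∀ k' ∈ s, k ≠ k' → ∀ x, ψ k x = 0 ∨ ψ k' x = 0 := by
    intro N
    induction N with
    | zero => exact fun _ _ _ _ => ⟨∅, 0, by simp, by simp, fun _ _ => ⟨fun _ _ => 0, by simp, by simp⟩⟩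
    | succ N ih =>
      intro N0 k0 τ0 hτ0
      obtain ⟨k, hk, g, τ, Mg, hτ, hττ, hg1, hg2, hg3⟩ := h N0 k0 τ0 hτ0
      have hτp := hpos τ hτ
      obtain ⟨N', hN', hN2⟩ := supp_tail (μ k) (half_pos hτp) N0
      obtain ⟨s, M1, h1, h2, h3⟩ := ih N' (k + 1) τ hτ
      have hks : k ∉ s := fun hk => by have := h2 k hk; omega
      refine ⟨insert k s, max M1 Mg, by rw [card_insert_of_notMem hks, h1], fun i hi => ?_,
        fun M hM => ?_⟩
      · rcases mem_insert.1 hi with rfl | hi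
        · exact hk
        · have := h2 i hi; omega
      obtain ⟨ψ, h4, h5⟩ := h3 M ((le_max_left _ _).trans hM)
      set g' : (ℕ → ℝ) → ℝ := fun x => g x * cut (Ico N' M) τ 0 x with hg'
      have hu : ∀ i ∈ s, Function.update ψ k g' i = ψ i := fun i hi =>
        Function.update_of_ne (ne_of_mem_of_not_mem hi hks) _ _
      have hd : ∀ i ∈ s, ∀ x, g' x = 0 ∨ ψ i x = 0 := fun i hi x => by
        by_contra hcon
        rw [not_or] at hcon
        obtain ⟨j, j1, j2, j3⟩ := (h4 i hi).2 x hcon.2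
        have := cut_ne hτp (right_ne_zero_of_mul hcon.1) (mem_Ico.2 ⟨j1, j2⟩)
        simp only [Pi.zero_apply, sub_zero] at this
        linarith
      refine ⟨Function.update ψ k g', fun i hi => ?_, fun i hi j hj hij x => ?_⟩
      · rcases mem_insert.1 hi with rfl | hi
        · rw [Function.update_self]
          refine ⟨⟨(hg3 _).1, (hg3 _).2, ?_⟩, fun x hx => ?_⟩
          · rw [pr_congr (g := g) ?_ fun p hp => ?_]
            · exact hg1
            · simp only [hg']; rw [cut_one hτp fun j _ => by simpa using (half_pos hτp).le, mul_one]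
            · simp only [hg']
              rw [cut_one hτp fun j hj => by simpa using hN2 p hp j (mem_Ico.1 hj).1, mul_one]
          · obtain ⟨j, j1, j2, j3⟩ := hg2 x (left_ne_zero_of_mul hx)
            exact ⟨j, j1, j2.trans_le ((le_max_right _ _).trans hM), j3⟩
        · rw [hu i hi]
          refine ⟨(h4 i hi).1, fun x hx => ?_⟩
          obtain ⟨j, j1, j2, j3⟩ := (h4 i hi).2 x hx
          exact ⟨j, hN'.trans j1, j2, hττ.trans j3⟩
      · rcases mem_insert.1 hi with rfl | hi' <;> rcases mem_insert.1 hj with rfl | hj'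
        · exact absurd rfl hij
        · rw [Function.update_self, hu j hj']; exact hd j hj' x
        · rw [Function.update_self, hu i hi']; exact (hd i hi' x).symm
        · rw [hu i hi', hu j hj']; exact h5 i hi' j hj' hij x
  obtain ⟨τ0, hτ0⟩ := hT
  refine lemD' H hL hK hc fun N => ?_
  obtain ⟨s, M1, h1, -, h3⟩ := key N 0 0 τ0 hτ0
  obtain ⟨ψ, h4, h5⟩ := h3 M1 le_rfl
  exact ⟨s, ψ, h1, fun k hk => (h4 k hk).1, h5⟩

lemma corr {f : (ℕ → ℝ) → ℝ} {M : ℕ} (hS : Sm f) (hD : Dep f M) (hL : Lip f 1) (ζ : ℕ → ℝ)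
    {η ρ : ℝ} (hη : 0 < η) (hρ : 0 < ρ) : ∃ (s : (ℕ → ℝ) → ℝ) (τ : ℝ), 0 < τ ∧ τ ≤ ρ ∧
      Bd s wS ∧ Lip s wS ∧ (∀ x, |s x| ≤ τ) ∧ (∀ x, s x ≠ 0 → Box M ζ (2 * τ) x) ∧
      ∀ x y t, Box M ζ (τ / 4) x → Box M ζ (τ / 4) y → Near x y t →
        |(f x - s x) - (f y - s y)| ≤ η * t := by
  obtain ⟨a, δ, hδ, ha, h⟩ := sd hS hD hL ζ hη
  obtain ⟨n, hn1, hn2⟩ : ∃ n : ℕ, M ≤ n ∧ (1 : ℝ) / 2 ^ n ≤ min δ ρ := by
    obtain ⟨n, hn⟩ := exists_pow_lt_of_lt_one (lt_min hδ hρ) (one_half_lt_one (α := ℝ))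
    refine ⟨max M n, le_max_left _ _, le_trans ?_ hn.le⟩
    rw [one_div_pow]
    exact one_div_le_one_div_of_le (by positivity) (pow_le_pow_right₀ one_le_two (le_max_right _ _))
  have p : (0 : ℝ) < 1 / 2 ^ n := by positivity
  set ν : ℕ → ℤ := fun j => ⌊4 * 2 ^ n * ζ j⌋ with hν
  have hz : ∀ j, |sz n ν j - ζ j| ≤ 1 / 2 ^ n / 4 := fun j => by
    have h1 := Int.floor_le (4 * 2 ^ n * ζ j)
    have h2 := Int.lt_floor_add_one (4 * 2 ^ n * ζ j)
    have e : sz n ν j - ζ j = (⌊4 * 2 ^ n * ζ j⌋ - 4 * 2 ^ n * ζ j) * (1 / 2 ^ n / 4) := by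
      simp only [sz, hν]; field_simp
    rw [e, abs_mul, abs_of_pos (by positivity : (0 : ℝ) < 1 / 2 ^ n / 4)]
    exact mul_le_of_le_one_left (by positivity) (abs_le.2 ⟨by linarith, by linarith⟩)
  have hw : ∑ j ∈ range M, |a j * wS| * 1 ≤ wS := by
    simp only [abs_mul, abs_of_pos wS_pos, mul_one, ← sum_mul]
    exact mul_le_of_le_one_left wS_pos.le ha
  refine ⟨fun x => ∑ j ∈ range M, a j * wS * sml n M j ν x, 1 / 2 ^ n, p,
    hn2.trans (min_le_right _ _), ?_, ?_, fun x => ?_, fun x hx => ?_, fun x y t hx hy hn => ?_⟩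
  · exact (Bd.sum _ fun j hj => (Bd.of_mem
      (Or.inr ⟨n, M, j, ν, mem_range.1 hj, hn1, rfl⟩)).smul _).mono hw
  · exact (Lip.sum _ fun j hj => (sml_lip (mem_range.1 hj) ν).smul _).mono hw
  · refine (abs_sum_le_sum_abs _ _).trans ((sum_le_sum (g := fun j => |a j| * (1 / 2 ^ n))
      fun j hj => ?_).trans ?_)
    · rw [mul_assoc, abs_mul, abs_mul, abs_of_pos wS_pos, mul_comm wS]
      exact mul_le_mul_of_nonneg_left (sml_amp (mem_range.1 hj) ν x) (abs_nonneg _)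
    · rw [← sum_mul]; exact mul_le_of_le_one_left p.le ha
  · obtain ⟨j, -, hj⟩ := exists_ne_zero_of_sum_ne_zero hx
    intro i hi
    have h1 := sml_box (right_ne_zero_of_mul hj) hi
    have h2 := abs_sub_le (x i) (sz n ν i) (ζ i)
    linarith [hz i]
  · have hb : ∀ x, Box M ζ (1 / 2 ^ n / 4) x → ∑ j ∈ range M, a j * wS * sml n M j ν x =
        ∑ j ∈ range M, a j * (x j - sz n ν j) := fun x hx => by
      refine sum_congr rfl fun j _ => ?_
      unfold sml
      rw [cut_one p fun i hi => ?_]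
      · have := wS_pos.ne'
        field_simp
      · have h2 := abs_sub_le (x i) (ζ i) (sz n ν i)
        rw [abs_sub_comm (ζ i)] at h2
        linarith [hz i, hx i (mem_range.1 hi)]
    have hδ' : 1 / 2 ^ n / 4 ≤ δ := by linarith [hn2.trans (min_le_left _ _)]
    have h1 := h x y t (hx.mono le_rfl hδ') (hy.mono le_rfl hδ') hn
    dsimp only
    rw [hb x hx, hb y hy]
    convert h1 using 2
    rw [sub_sub_sub_comm, ← sum_sub_distrib]
    congr 1
    exact sum_congr rfl fun _ _ => by ring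

theorem nested (H : HH μ C) (ζ : ℕ → ℝ) {A : Set ℕ} (hA : A.Nonempty) {c : ℝ} (hc : 0 < c)
    (h : ∀ M0 ∈ A, ∀ ρ > 0, ∀ k0 : ℕ, ∃ k, k0 ≤ k ∧ ∃ (f : (ℕ → ℝ) → ℝ) (M : ℕ), M ∈ A ∧ M0 ≤ M ∧
      c ≤ |pr (μ k) f| ∧ Bd f 1 ∧ Lip f 1 ∧ Sm f ∧ Dep f M ∧ (∀ x, |f x| ≤ ρ) ∧
      ∀ x, f x ≠ 0 → Box M0 ζ ρ x) : False := by
  have hw := wS_pos
  refine lemD H (L := 2 + wS) (K := 1 + wS) (by positivity) (half_pos hc) fun η hη => ?_
  have key : ∀ N : ℕ, ∀ M0 ∈ A, ∀ ρ > 0, ∀ k0 : ℕ, ∃ (s : Finset ℕ) (ψ : ℕ → (ℕ → ℝ) → ℝ),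
      s.card = N ∧ (∀ k ∈ s, k0 ≤ k ∧ Bd (ψ k) (1 + wS) ∧ c / 2 ≤ |pr (μ k) (ψ k)|) ∧
      ∀ e : ℕ → ℝ, (∀ k, |e k| ≤ 1) →
        Lip (fun x => ∑ k ∈ s, e k * ψ k x) (2 + wS + N * η) ∧
        ∀ x, |∑ k ∈ s, e k * ψ k x| ≤ ρ ∧ (∑ k ∈ s, e k * ψ k x ≠ 0 → Box M0 ζ ρ x) := by
    intro N
    induction N with
    | zero =>
      refine fun _ _ ρ hρ _ => ⟨∅, fun _ _ => 0, by simp, by simp, fun e _ => ⟨?_, fun x => ?_⟩⟩
      · simpa using (Lip.const 0).mono (by positivity : 0 ≤ 2 + wS)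
      · simpa using hρ.le
    | succ N ih =>
      intro M0 hM0 ρ hρ k0
      obtain ⟨k, hk, f, M, hM, hMM, f1, f2, f3, f4, f5, f6, f7⟩ :=
        h M0 hM0 (ρ / 3) (by positivity) k0
      set m := ∑ p ∈ (μ k).support, |μ k p| with hm
      have hm0 : 0 ≤ m := sum_nonneg fun _ _ => abs_nonneg _
      obtain ⟨σ, τ, hτ, hτρ, s1, s2, s3, s4, s5⟩ := corr f4 f5 f3 ζ hη
        (ρ := min (ρ / 2) (c / (4 * (m + 1)))) (by positivity)
      have t1 := hτρ.trans (min_le_left _ _)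
      have t2 := hτρ.trans (min_le_right _ _)
      obtain ⟨s, ψ, h1, h2, h3⟩ := ih M hM (τ / 8) (by positivity) (k + 1)
      have hks : k ∉ s := fun hk => by have := (h2 k hk).1; omega
      set g : (ℕ → ℝ) → ℝ := fun x => f x - σ x with hg
      have hu : ∀ i ∈ s, Function.update ψ k g i = ψ i := fun i hi =>
        Function.update_of_ne (ne_of_mem_of_not_mem hi hks) _ _
      refine ⟨insert k s, Function.update ψ k g, by rw [card_insert_of_notMem hks, h1],
        fun i hi => ?_, fun e he => ?_⟩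
      · rcases mem_insert.1 hi with rfl | hi
        · rw [Function.update_self]
          refine ⟨hk, f2.sub s1, ?_⟩
          rw [hg, pr_sub]
          have b1 := pr_bound (μ i) s3
          have b2 := abs_sub_abs_le_abs_sub (pr (μ i) f) (pr (μ i) σ)
          rw [le_div_iff₀ (by positivity)] at t2
          rw [← hm] at b1
          nlinarith
        · rw [hu i hi]
          exact ⟨by have := (h2 i hi).1; omega, (h2 i hi).2⟩
      obtain ⟨h4, h5⟩ := h3 e he
      set F : (ℕ → ℝ) → ℝ := fun x => ∑ i ∈ s, e i * ψ i x with hF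
      have hs : ∀ x, ∑ i ∈ insert k s, e i * Function.update ψ k g i x = e k * g x + F x :=
        fun x => by
          rw [sum_insert hks, Function.update_self]
          congr 1
          exact sum_congr rfl fun i hi => by rw [hu i hi]
      simp only [hs]
      have he' : ∀ u : ℝ, |e k * u| ≤ |u| := fun u => by
        rw [abs_mul]; exact mul_le_of_le_one_left (abs_nonneg _) (he k)
      refine ⟨fun x y t hn => ?_, fun x => ⟨?_, fun hx => ?_⟩⟩
      · have ht := hn.nonneg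
        have e1 : e k * g x + F x - (e k * g y + F y) = e k * (g x - g y) + (F x - F y) := by ring
        have b1 := abs_add_le (e k * (g x - g y)) (F x - F y)
        have b2 := he' (g x - g y)
        have hN : (0 : ℝ) ≤ N * η * t := by positivity
        have hN' : (0 : ℝ) ≤ η * t := by positivity
        dsimp only
        rw [e1]
        push_cast
        by_cases hb : Box M ζ (τ / 4) x ∧ Box M ζ (τ / 4) y
        · have b3 := s5 x y t hb.1 hb.2 hn
          have b4 := h4 x y t hn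
          simp only [hg] at b1 b2 ⊢
          nlinarith
        · have b3 := (f3.sub s2) x y t hn
          have b4 : ∀ x y, Near x y t → ¬ Box M ζ (τ / 4) y → |F x - F y| ≤ t := by
            intro x y hn hy
            have hy0 : F y = 0 := by
              by_contra h'
              exact hy (((h5 y).2 h').mono le_rfl (by linarith))
            rw [hy0, sub_zero]
            by_cases hx0 : F x = 0
            · rw [hx0, abs_zero]; exact ht
            · simp only [Box, not_forall, not_le] at hy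
              obtain ⟨j, hj, hj'⟩ := hy
              have c1 := (h5 x).2 hx0 j hj
              have c2 := abs_sub_le (y j) (x j) (ζ j)
              linarith [hn.symm j, (h5 x).1]
          have b5 : |F x - F y| ≤ t := by
            rcases not_and_or.1 hb with hb | hb
            · rw [abs_sub_comm]; exact b4 y x hn.symm hb
            · exact b4 x y hn hb
          simp only [hg] at b1 b2 ⊢
          nlinarith
      · have b1 := abs_add_le (e k * g x) (F x)
        have b2 := he' (g x)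
        have b3 := abs_sub (f x) (σ x)
        simp only [hg] at b1 b2 ⊢
        linarith [f6 x, s3 x, (h5 x).1]
      · by_cases c1 : f x = 0
        · by_cases c2 : σ x = 0
          · have : F x ≠ 0 := by simpa [hg, c1, c2] using hx
            exact ((h5 x).2 this).mono hMM (by linarith)
          · exact (s4 x c2).mono hMM (by linarith)
        · exact (f7 x c1).mono le_rfl (by linarith)
  intro N
  obtain ⟨M0, hM0⟩ := hA
  obtain ⟨s, ψ, h1, h2, h3⟩ := key N M0 hM0 1 one_pos 0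
  exact ⟨s, ψ, h1, fun k hk => (h2 k hk).2, fun e he => (h3 e he).1⟩

end Vale.Agent.P124
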